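import Vale.Agent.P073.Smooth2

namespace Vale.Agent.P073

open MeasureTheory Set Filter Topology
open scoped ENNReal ContDiff Convolution

lemma gK_fderiv_continuous {κ : ℝ} (hκ0 : 0 < κ) {x : R3} (hx : x ∈ cube) :
    Continuous (fun z : R3 => fderiv ℝ (Function.HasUncurry.uncurry (gK κ)) (x, z)) := by
  have h1 : ContinuousOn (fderiv ℝ (Function.HasUncurry.uncurry (gK κ))) (cube ×ˢ (univ : Set R3)) :=
    (gK_contDiffOn hκ0).continuousOn_fderiv_of_isOpen (cube_isOpen.prod isOpen_univ) (by simp)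
  exact h1.comp_continuous (by fun_prop) (fun z => ⟨hx, mem_univ _⟩)

lemma gK_fderiv_hasCompactSupport {κ : ℝ} (hκ0 : 0 < κ) (hκ : κ ≤ 1/2) {x : R3} (hx : x ∈ cube) :
    HasCompactSupport (fun z : R3 => fderiv ℝ (Function.HasUncurry.uncurry (gK κ)) (x, z)) := by
  apply HasCompactSupport.intro (K := Icc (fun _ => -1 : R3) (fun _ => 1)) isCompact_Icc
  intro z hz
  have hopen : IsOpen (cube ×ˢ (Icc (fun _ => -1 : R3) (fun _ => 1))ᶜ) :=
    cube_isOpen.prod isClosed_Icc.isOpen_compl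
  have hev : (Function.HasUncurry.uncurry (gK κ)) =ᶠ[𝓝 (x, z)] fun _ => (0:ℝ) := by
    filter_upwards [hopen.mem_nhds ⟨hx, hz⟩] with q hq
    exact gK_eq_zero hκ0 hκ q.1 q.2 hq.1 hq.2
  rw [hev.fderiv_eq]
  simp

lemma A0_fderiv {κ : ℝ} (hκ0 : 0 < κ) (hκ : κ ≤ 1/2) (k' k : Fin 3) {u v : R3 → ℝ}
    (hu : LocallyIntegrable u volume) (hweak : IsWeakPartial cube k u v) {x : R3} (hx : x ∈ cube) :
    fderiv ℝ (A κ 0 k' u) x (Pi.single k 1) = A κ 1 k v x := by
  have hF := hasFDerivAt_convolution_right_with_param (L := ContinuousLinearMap.mul ℝ ℝ)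
    (μ := volume) (f := u) (g := gK κ) cube_isOpen isCompact_Icc (gK_eq_zero hκ0 hκ) hu
    ((gK_contDiffOn hκ0).of_le (by simp)) (x, x) hx
  have hdiag : HasFDerivAt (fun y : R3 => (y, y))
      ((ContinuousLinearMap.id ℝ R3).prod (ContinuousLinearMap.id ℝ R3)) x :=
    (hasFDerivAt_id x).prodMk (hasFDerivAt_id x)
  have hcomp := HasFDerivAt.comp (f := fun y : R3 => (y, y)) x hF hdiag
  have hev : A κ 0 k' u =ᶠ[𝓝 x]
      ((fun q : R3 × R3 => (u ⋆[ContinuousLinearMap.mul ℝ ℝ, volume] gK κ q.1) q.2)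
        ∘ fun y : R3 => (y, y)) := by
    filter_upwards [cube_isOpen.mem_nhds hx] with y hy
    exact A0_eq_conv hκ0 k' u hy
  rw [hev.fderiv_eq, hcomp.fderiv]
  simp only [ContinuousLinearMap.comp_apply, ContinuousLinearMap.prod_apply,
    ContinuousLinearMap.id_apply]
  rw [convolution_precompR_apply (ContinuousLinearMap.mul ℝ ℝ) hu (gK_fderiv_hasCompactSupport hκ0 hκ hx)
    (gK_fderiv_continuous hκ0 hx), convolution_mul]
  have e1 : (fun t => u t * fderiv ℝ (Function.HasUncurry.uncurry (gK κ)) (x, x - t)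
      (Pi.single k 1, Pi.single k 1))
      = fun t => - (u t * fderiv ℝ (psi κ k x) t (Pi.single k 1)) := by
    funext t
    rw [gK_fderiv hκ0 k hx, psi_fderiv hκ0 k hx]
    ring
  rw [e1, integral_neg]
  have hsupp := psi_tsupport_subset hκ0 hκ k hx
  have e2 : ∫ t in cube, u t * fderiv ℝ (psi κ k x) t (Pi.single k 1)
      = ∫ t, u t * fderiv ℝ (psi κ k x) t (Pi.single k 1) := by
    apply setIntegral_eq_integral_of_forall_compl_eq_zero
    intro t ht
    have : fderiv ℝ (psi κ k x) t = 0 := by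
      by_contra hne
      exact ht (hsupp (support_fderiv_subset ℝ hne))
    simp [this]
  have e3 : ∫ t in cube, v t * psi κ k x t = ∫ t, v t * psi κ k x t := by
    apply setIntegral_eq_integral_of_forall_compl_eq_zero
    intro t ht
    have : psi κ k x t = 0 := by
      by_contra hne
      exact ht (hsupp (subset_tsupport _ hne))
    simp [this]
  rw [← e2, hweak (psi κ k x) (psi_contDiff κ k x) (psi_hasCompactSupport hκ0 k hx) hsupp, neg_neg,
    e3, A_eq_kernel hκ0 k v hx]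
  congr 1
  funext t
  unfold psi
  ring

end Vale.Agent.P073
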