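import Vale.Agent.P073.Diffeo2
import Vale.Agent.P073.Smooth3

namespace Vale.Agent.P073

open MeasureTheory Set Filter Topology
open scoped ENNReal ContDiff

/-- the `i`-th component of `f`, cut off outside the cube -/
noncomputable def uc (f : R3 → R3) (i : Fin 3) : R3 → ℝ := cube.indicator (fun x => f x i)

lemma uc_of_mem {f : R3 → R3} {i : Fin 3} {x : R3} (hx : x ∈ cube) : uc f i x = f x i :=
  indicator_of_mem hx _

lemma uc_measurable {f : R3 → R3} (hcont : ContinuousOn f cube) (i : Fin 3) :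
    Measurable (uc f i) := by
  classical
  unfold uc
  rw [← Set.piecewise_eq_indicator]
  apply ContinuousOn.measurable_piecewise _ continuousOn_const cube_measurableSet
  exact (continuous_apply i).comp_continuousOn hcont

lemma uc_nonneg {f : R3 → R3} (hmaps : MapsTo f cube cube) (i : Fin 3) (x : R3) : 0 ≤ uc f i x := by
  unfold uc
  apply indicator_nonneg
  intro y hy
  exact ((hmaps hy) i).1.le

lemma uc_le_one {f : R3 → R3} (hmaps : MapsTo f cube cube) (i : Fin 3) (x : R3) : uc f i x ≤ 1 := by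
  unfold uc
  apply indicator_le' _ (fun _ _ => zero_le_one)
  intro y hy
  exact ((hmaps hy) i).2.le

lemma uc_norm_le {f : R3 → R3} (hmaps : MapsTo f cube cube) (i : Fin 3) (x : R3) :
    ‖uc f i x‖ ≤ 1 := by
  rw [Real.norm_eq_abs, abs_of_nonneg (uc_nonneg hmaps i x)]
  exact uc_le_one hmaps i x

lemma uc_locallyIntegrable {f : R3 → R3} (hcont : ContinuousOn f cube) (hmaps : MapsTo f cube cube)
    (i : Fin 3) : LocallyIntegrable (uc f i) volume := by
  apply (locallyIntegrable_const (1:ℝ)).mono (uc_measurable hcont i).aestronglyMeasurable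
  apply ae_of_all
  intro x
  simpa using uc_norm_le hmaps i x

lemma A_zero (κ : ℝ) (k : Fin 3) (w : R3 → ℝ) (x : R3) : A κ 0 k w x = ∫ s, w (T κ s x) * Phi s := by
  simp [A]

lemma integrable_uc_T {f : R3 → R3} (hcont : ContinuousOn f cube) (hmaps : MapsTo f cube cube)
    (i : Fin 3) (κ : ℝ) (x : R3) : Integrable (fun s => uc f i (T κ s x) * Phi s) := by
  apply Phi_integrable.bdd_mul (c := 1)
  · exact ((uc_measurable hcont i).comp (T_continuous_left κ x).measurable).aestronglyMeasurable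
  · exact ae_of_all _ fun s => uc_norm_le hmaps i _

/-- the smoothed components -/
noncomputable def aa (f : R3 → R3) (κ : ℝ) (i : Fin 3) (x : R3) : ℝ := A κ 0 i (uc f i) x

lemma aa_eq (f : R3 → R3) (κ : ℝ) (i : Fin 3) (x : R3) :
    aa f κ i x = ∫ s, uc f i (T κ s x) * Phi s := A_zero κ i _ x

lemma aa_nonneg {f : R3 → R3} (hmaps : MapsTo f cube cube) (κ : ℝ) (i : Fin 3) (x : R3) :
    0 ≤ aa f κ i x := by
  rw [aa_eq]
  exact integral_nonneg fun s => mul_nonneg (uc_nonneg hmaps i _) (Phi_nonneg s)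

lemma aa_le_one {f : R3 → R3} (hcont : ContinuousOn f cube) (hmaps : MapsTo f cube cube) (κ : ℝ)
    (i : Fin 3) (x : R3) : aa f κ i x ≤ 1 := by
  rw [aa_eq, ← Phi_integral]
  apply integral_mono (integrable_uc_T hcont hmaps i κ x) Phi_integrable
  intro s
  calc uc f i (T κ s x) * Phi s ≤ 1 * Phi s :=
        mul_le_mul_of_nonneg_right (uc_le_one hmaps i _) (Phi_nonneg s)
    _ = Phi s := one_mul _

lemma aa_mono {f : R3 → R3} (hcont : ContinuousOn f cube) (hmaps : MapsTo f cube cube)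
    (htri : IsIncrTriangularOn cube f) {κ : ℝ} (hκ0 : 0 ≤ κ) (hκ : κ ≤ 1/2) (i : Fin 3) {x y : R3}
    (hx : x ∈ cube) (hy : y ∈ cube) (hlt : ∀ j < i, x j = y j) (hle : x i ≤ y i) :
    aa f κ i x ≤ aa f κ i y := by
  rw [aa_eq, aa_eq]
  apply integral_mono (integrable_uc_T hcont hmaps i κ x) (integrable_uc_T hcont hmaps i κ y)
  intro s
  by_cases hs : Phi s = 0
  · simp [hs]
  · have hs' : ∀ j, |s j| ≤ 1 := fun j => (Phi_ne_zero_imp hs j).le
    apply mul_le_mul_of_nonneg_right _ (Phi_nonneg s)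
    have hTx := T_mem_cube hκ0 hκ hs' hx
    have hTy := T_mem_cube hκ0 hκ hs' hy
    rw [uc_of_mem hTx, uc_of_mem hTy]
    have h1 : ∀ j < i, T κ s x j = T κ s y j := fun j hj => by simp [T, hlt j hj]
    rcases hle.lt_or_eq with h | h
    · exact ((htri i _ hTx _ hTy h1).2 (th_lt_th hκ0 hκ (hs' i) (hx i).1 (hy i).2 h)).le
    · exact ((htri i _ hTx _ hTy h1).1 (by simp [T, h])).le

lemma aa_contDiffOn {f : R3 → R3} (hcont : ContinuousOn f cube) (hmaps : MapsTo f cube cube)
    {κ : ℝ} (hκ0 : 0 < κ) (hκ : κ ≤ 1/2) (i : Fin 3) : ContDiffOn ℝ ∞ (aa f κ i) cube :=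
  A0_contDiffOn hκ0 hκ i (uc_locallyIntegrable hcont hmaps i)

/-- the approximating maps -/
noncomputable def FF (f : R3 → R3) (κ η : ℝ) (x : R3) : R3 :=
  fun i => (1 - η) * aa f κ i x + η * x i

lemma FF_contDiffOn {f : R3 → R3} (hcont : ContinuousOn f cube) (hmaps : MapsTo f cube cube)
    {κ : ℝ} (hκ0 : 0 < κ) (hκ : κ ≤ 1/2) (η : ℝ) : ContDiffOn ℝ ∞ (FF f κ η) cube := by
  rw [contDiffOn_pi]
  intro i
  have h1 : ContDiffOn ℝ ∞ (fun x : R3 => η * x i) cube := by
    apply ContDiff.contDiffOn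
    fun_prop
  exact (contDiffOn_const.mul (aa_contDiffOn hcont hmaps hκ0 hκ i)).add h1

lemma FF_mapsTo {f : R3 → R3} (hcont : ContinuousOn f cube) (hmaps : MapsTo f cube cube)
    (κ : ℝ) {η : ℝ} (hη0 : 0 < η) (hη1 : η < 1) : MapsTo (FF f κ η) cube cube := by
  intro x hx i
  have h0 := aa_nonneg hmaps κ i x
  have h1 := aa_le_one hcont hmaps κ i x
  have hx0 := (hx i).1
  have hx1 := (hx i).2
  have h2 : 0 < 1 - η := by linarith
  constructor
  · show 0 < (1 - η) * aa f κ i x + η * x i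
    positivity
  · show (1 - η) * aa f κ i x + η * x i < 1
    nlinarith

lemma FF_tri {f : R3 → R3} (hcont : ContinuousOn f cube) (hmaps : MapsTo f cube cube)
    (htri : IsIncrTriangularOn cube f) {κ : ℝ} (hκ0 : 0 ≤ κ) (hκ : κ ≤ 1/2)
    {η : ℝ} (hη0 : 0 < η) (hη1 : η < 1) : IsIncrTriangularOn cube (FF f κ η) := by
  intro i x hx y hy hlt
  have h2 : 0 < 1 - η := by linarith
  constructor
  · intro heq
    have h3 := aa_mono hcont hmaps htri hκ0 hκ i hx hy hlt heq.le
    have h4 := aa_mono hcont hmaps htri hκ0 hκ i hy hx (fun j hj => (hlt j hj).symm) heq.ge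
    show (1 - η) * aa f κ i x + η * x i = (1 - η) * aa f κ i y + η * y i
    rw [le_antisymm h3 h4, heq]
  · intro hl
    have h3 := aa_mono hcont hmaps htri hκ0 hκ i hx hy hlt hl.le
    show (1 - η) * aa f κ i x + η * x i < (1 - η) * aa f κ i y + η * y i
    nlinarith

end Vale.Agent.P073
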