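import Vale.Agent.P073.Approx

namespace Vale.Agent.P073

open MeasureTheory Set Filter Topology
open scoped ENNReal ContDiff

lemma aa_differentiableAt {f : R3 → R3} (hcont : ContinuousOn f cube) (hmaps : MapsTo f cube cube)
    {κ : ℝ} (hκ0 : 0 < κ) (hκ : κ ≤ 1/2) (i : Fin 3) {x : R3} (hx : x ∈ cube) :
    DifferentiableAt ℝ (aa f κ i) x :=
  ((aa_contDiffOn hcont hmaps hκ0 hκ i).contDiffAt (cube_isOpen.mem_nhds hx)).differentiableAt
    (by simp)

lemma FF_fderiv {f : R3 → R3} (hcont : ContinuousOn f cube) (hmaps : MapsTo f cube cube)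
    {κ : ℝ} (hκ0 : 0 < κ) (hκ : κ ≤ 1/2) (η : ℝ) {x : R3} (hx : x ∈ cube) (i k : Fin 3) :
    fderiv ℝ (FF f κ η) x (Pi.single k 1) i
      = (1 - η) * fderiv ℝ (aa f κ i) x (Pi.single k 1) + η * (if i = k then 1 else 0) := by
  have h1 : ∀ j, HasFDerivAt (fun y : R3 => (1 - η) * aa f κ j y + η * y j)
      ((1 - η) • fderiv ℝ (aa f κ j) x + η • (ContinuousLinearMap.proj j : R3 →L[ℝ] ℝ)) x := by
    intro j
    have h2 : HasFDerivAt (fun y : R3 => y j) (ContinuousLinearMap.proj j : R3 →L[ℝ] ℝ) x :=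
      (ContinuousLinearMap.proj j : R3 →L[ℝ] ℝ).hasFDerivAt
    exact ((aa_differentiableAt hcont hmaps hκ0 hκ j hx).hasFDerivAt.const_mul (1 - η)).add
      (h2.const_mul η)
  have h3 : HasFDerivAt (FF f κ η) (ContinuousLinearMap.pi fun j =>
      ((1 - η) • fderiv ℝ (aa f κ j) x + η • (ContinuousLinearMap.proj j : R3 →L[ℝ] ℝ))) x :=
    hasFDerivAt_pi.mpr h1
  rw [h3.fderiv]
  simp [Pi.single_apply]

lemma aa_fderiv_nonneg {f : R3 → R3} (hcont : ContinuousOn f cube) (hmaps : MapsTo f cube cube)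
    (htri : IsIncrTriangularOn cube f) {κ : ℝ} (hκ0 : 0 < κ) (hκ : κ ≤ 1/2) (i : Fin 3) {x : R3}
    (hx : x ∈ cube) : 0 ≤ fderiv ℝ (aa f κ i) x (Pi.single i 1) := by
  have h1 : HasDerivAt (fun h : ℝ => aa f κ i (x + h • Pi.single i 1))
      (fderiv ℝ (aa f κ i) x (Pi.single i 1)) 0 :=
    (aa_differentiableAt hcont hmaps hκ0 hκ i hx).hasFDerivAt.hasLineDerivAt _
  have h2 := h1.tendsto_slope_zero_right
  apply ge_of_tendsto h2
  have h3 : ∀ᶠ h : ℝ in 𝓝[>] 0, x + h • (Pi.single i 1 : R3) ∈ cube :=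
    (eventually_add_smul_mem_cube hx _).filter_mono nhdsWithin_le_nhds
  filter_upwards [h3, self_mem_nhdsWithin] with h hh hpos
  have hpos' : (0:ℝ) < h := hpos
  have h4 : aa f κ i x ≤ aa f κ i (x + h • Pi.single i 1) := by
    apply aa_mono hcont hmaps htri hκ0.le hκ i hx hh
    · intro j hj
      simp [Pi.single_eq_of_ne hj.ne]
    · simp [hpos'.le]
  simp only [zero_add, zero_smul, add_zero, smul_eq_mul]
  apply mul_nonneg (inv_nonneg.mpr hpos'.le)
  linarith

lemma FF_diag_pos {f : R3 → R3} (hcont : ContinuousOn f cube) (hmaps : MapsTo f cube cube)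
    (htri : IsIncrTriangularOn cube f) {κ : ℝ} (hκ0 : 0 < κ) (hκ : κ ≤ 1/2)
    {η : ℝ} (hη0 : 0 < η) (hη1 : η < 1) {x : R3} (hx : x ∈ cube) (i : Fin 3) :
    0 < fderiv ℝ (FF f κ η) x (Pi.single i 1) i := by
  rw [FF_fderiv hcont hmaps hκ0 hκ η hx]
  have h1 := aa_fderiv_nonneg hcont hmaps htri hκ0 hκ i hx
  have h2 : 0 < 1 - η := by linarith
  simp only [if_true, mul_one]
  positivity

lemma T_update (κ : ℝ) (s x : R3) (i : Fin 3) (t : ℝ) :
    T κ s (Function.update x i t) = Function.update (T κ s x) i (th κ (s i) t) := by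
  funext j
  by_cases hj : j = i
  · subst hj
    simp [T]
  · simp [T, Function.update_of_ne hj]

/-- boundary behaviour of the components of `f` at the lower face -/
lemma tendsto_comp_zero {f : R3 → R3} (hmaps : MapsTo f cube cube)
    (htri : IsIncrTriangularOn cube f) (hcs : CoordSurj f) (i : Fin 3) {w : R3} (hw : w ∈ cube)
    {r : ℕ → ℝ} (hr0 : ∀ n, 0 < r n) (hr1 : ∀ n, r n < 1) (hr : Tendsto r atTop (𝓝 0)) :
    Tendsto (fun n => f (Function.update w i (r n)) i) atTop (𝓝 0) := by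
  rw [tendsto_order]
  constructor
  · intro a ha
    apply Eventually.of_forall
    intro n
    exact lt_trans ha ((hmaps (update_mem_cube hw i (hr0 n) (hr1 n))) i).1
  · intro a ha
    obtain ⟨t, ht0, ht1, hft⟩ := hcs i w hw (min a (1/2)) (by positivity)
      (lt_of_le_of_lt (min_le_right _ _) (by norm_num))
    have hev : ∀ᶠ n in atTop, r n < t := (tendsto_order.mp hr).2 t ht0
    filter_upwards [hev] with n hn
    have h1 := (htri i _ (update_mem_cube hw i (hr0 n) (hr1 n)) _ (update_mem_cube hw i ht0 ht1)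
      (fun j hj => by simp [Function.update_of_ne hj.ne])).2 (by simpa using hn)
    rw [hft] at h1
    exact lt_of_lt_of_le h1 (min_le_left _ _)

/-- boundary behaviour of the components of `f` at the upper face -/
lemma tendsto_comp_one {f : R3 → R3} (hmaps : MapsTo f cube cube)
    (htri : IsIncrTriangularOn cube f) (hcs : CoordSurj f) (i : Fin 3) {w : R3} (hw : w ∈ cube)
    {r : ℕ → ℝ} (hr0 : ∀ n, 0 < r n) (hr1 : ∀ n, r n < 1) (hr : Tendsto r atTop (𝓝 1)) :
    Tendsto (fun n => f (Function.update w i (r n)) i) atTop (𝓝 1) := by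
  rw [tendsto_order]
  constructor
  · intro a ha
    obtain ⟨t, ht0, ht1, hft⟩ := hcs i w hw (max a (1/2)) (by positivity)
      (max_lt ha (by norm_num))
    have hev : ∀ᶠ n in atTop, t < r n := (tendsto_order.mp hr).1 t ht1
    filter_upwards [hev] with n hn
    have h1 := (htri i _ (update_mem_cube hw i ht0 ht1) _ (update_mem_cube hw i (hr0 n) (hr1 n))
      (fun j hj => by simp [Function.update_of_ne hj.ne])).2 (by simpa using hn)
    rw [hft] at h1
    exact lt_of_le_of_lt (le_max_left _ _) h1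
  · intro a ha
    apply Eventually.of_forall
    intro n
    exact lt_trans ((hmaps (update_mem_cube hw i (hr0 n) (hr1 n))) i).2 ha

lemma th_continuous (κ s : ℝ) : Continuous (th κ s) := by
  unfold th
  fun_prop

lemma tendsto_aa_update {f : R3 → R3} (hcont : ContinuousOn f cube) (hmaps : MapsTo f cube cube)
    {κ : ℝ} (hκ0 : 0 ≤ κ) (hκ : κ ≤ 1/2) (i : Fin 3) {x : R3}
    (hx : x ∈ cube) {t : ℕ → ℝ} (ht0 : ∀ n, 0 < t n) (ht1 : ∀ n, t n < 1) {τ ℓ : ℝ}
    (ht : Tendsto t atTop (𝓝 τ)) (hτ : ∀ s, th κ s τ = τ)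
    (hlim : ∀ w ∈ cube, ∀ r : ℕ → ℝ, (∀ n, 0 < r n) → (∀ n, r n < 1) → Tendsto r atTop (𝓝 τ) →
      Tendsto (fun n => f (Function.update w i (r n)) i) atTop (𝓝 ℓ)) :
    Tendsto (fun n => aa f κ i (Function.update x i (t n))) atTop (𝓝 ℓ) := by
  have h1 : ∫ s, ℓ * Phi s = ℓ := by rw [integral_const_mul, Phi_integral, mul_one]
  rw [← h1]
  simp_rw [aa_eq]
  apply tendsto_integral_of_dominated_convergence Phi
  · intro n
    exact (integrable_uc_T hcont hmaps i κ _).aestronglyMeasurable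
  · exact Phi_integrable
  · intro n
    apply ae_of_all
    intro s
    rw [norm_mul, Real.norm_eq_abs (Phi s), abs_of_nonneg (Phi_nonneg s)]
    calc ‖uc f i (T κ s (Function.update x i (t n)))‖ * Phi s ≤ 1 * Phi s :=
          mul_le_mul_of_nonneg_right (uc_norm_le hmaps i _) (Phi_nonneg s)
      _ = Phi s := one_mul _
  · apply ae_of_all
    intro s
    by_cases hs : Phi s = 0
    · simp [hs]
    · have hs' : ∀ j, |s j| ≤ 1 := fun j => (Phi_ne_zero_imp hs j).le
      apply Tendsto.mul_const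
      have hw := T_mem_cube hκ0 hκ hs' hx
      have e : (fun n => uc f i (T κ s (Function.update x i (t n))))
          = fun n => f (Function.update (T κ s x) i (th κ (s i) (t n))) i := by
        funext n
        rw [uc_of_mem (T_mem_cube hκ0 hκ hs' (update_mem_cube hx i (ht0 n) (ht1 n))), T_update]
      rw [e]
      apply hlim _ hw
      · intro n
        exact th_pos hκ0 hκ (hs' i) (ht0 n) (ht1 n)
      · intro n
        exact th_lt_one hκ0 hκ (hs' i) (ht0 n) (ht1 n)
      · have := ((th_continuous κ (s i)).tendsto τ).comp ht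
        rw [hτ] at this
        exact this

lemma FF_coordSurj {f : R3 → R3} (hcont : ContinuousOn f cube) (hmaps : MapsTo f cube cube)
    (htri : IsIncrTriangularOn cube f) (hcs : CoordSurj f) {κ : ℝ} (hκ0 : 0 < κ) (hκ : κ ≤ 1/2)
    (η : ℝ) : CoordSurj (FF f κ η) := by
  intro i x hx y hy0 hy1
  -- sequences going to the two faces
  have hs0 : Tendsto (fun n : ℕ => 1 / ((n:ℝ) + 2)) atTop (𝓝 0) := by
    have h := tendsto_one_div_add_atTop_nhds_zero_nat (𝕜 := ℝ)
    have h2 := h.comp (tendsto_add_atTop_nat 1)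
    refine h2.congr ?_
    intro n
    simp only [Function.comp_apply, Nat.cast_add, Nat.cast_one]
    ring_nf
  have hp0 : ∀ n : ℕ, 0 < 1 / ((n:ℝ) + 2) := fun n => by positivity
  have hp1 : ∀ n : ℕ, 1 / ((n:ℝ) + 2) < 1 := fun n => by
    rw [div_lt_one (by positivity)]
    have : (0:ℝ) ≤ n := Nat.cast_nonneg n
    linarith
  have hs1 : Tendsto (fun n : ℕ => 1 - 1 / ((n:ℝ) + 2)) atTop (𝓝 1) := by
    simpa using hs0.const_sub 1
  have hq0 : ∀ n : ℕ, 0 < 1 - 1 / ((n:ℝ) + 2) := fun n => by linarith [hp1 n]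
  have hq1 : ∀ n : ℕ, 1 - 1 / ((n:ℝ) + 2) < 1 := fun n => by linarith [hp0 n]
  have l0 := tendsto_aa_update hcont hmaps hκ0.le hκ i hx hp0 hp1 hs0 (ℓ := 0)
    (fun s => by simp [th]) (fun w hw r h0 h1 hr => tendsto_comp_zero hmaps htri hcs i hw h0 h1 hr)
  have l1 := tendsto_aa_update hcont hmaps hκ0.le hκ i hx hq0 hq1 hs1 (ℓ := 1)
    (fun s => by simp [th]) (fun w hw r h0 h1 hr => tendsto_comp_one hmaps htri hcs i hw h0 h1 hr)
  have L0 : Tendsto (fun n : ℕ => FF f κ η (Function.update x i (1 / ((n:ℝ) + 2))) i) atTop (𝓝 0) := by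
    have := (l0.const_mul (1 - η)).add (hs0.const_mul η)
    simpa [FF] using this
  have L1 : Tendsto (fun n : ℕ => FF f κ η (Function.update x i (1 - 1 / ((n:ℝ) + 2))) i) atTop
      (𝓝 1) := by
    have := (l1.const_mul (1 - η)).add (hs1.const_mul η)
    simpa [FF] using this
  obtain ⟨n, hn⟩ := ((tendsto_order.mp L0).2 y hy0).exists
  obtain ⟨m, hm⟩ := ((tendsto_order.mp L1).1 y hy1).exists
  have hG : ContinuousOn (fun t : ℝ => FF f κ η (Function.update x i t) i) (Ioo 0 1) := by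
    have h1 : ContinuousOn (fun z : R3 => FF f κ η z i) cube :=
      (continuous_apply i).comp_continuousOn (FF_contDiffOn hcont hmaps hκ0 hκ η).continuousOn
    apply h1.comp (Continuous.continuousOn (by fun_prop))
    intro t ht
    exact update_mem_cube hx i ht.1 ht.2
  have hivt := isPreconnected_Ioo.intermediate_value (a := 1 / ((n:ℝ) + 2))
    (b := 1 - 1 / ((m:ℝ) + 2)) ⟨hp0 n, hp1 n⟩ ⟨hq0 m, hq1 m⟩ hG
  obtain ⟨t, ht, hty⟩ := hivt ⟨hn.le, hm.le⟩
  exact ⟨t, ht.1, ht.2, hty⟩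

end Vale.Agent.P073
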