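import Mathlib

/-!
# P073 (Ball-Evans approximation problem in dimension three): basic definitions

`R3` is three-dimensional real space, written as functions `Fin 3 → ℝ`; Euclidean and Frobenius
norms are written out explicitly, Lebesgue measure is `volume`.
-/

namespace Vale.Agent.P073

open MeasureTheory Set Filter Topology
open scoped ENNReal ContDiff

/-- Three-dimensional real space. -/
abbrev R3 : Type := Fin 3 → ℝ

/-- The Euclidean norm of a vector of `R3`. -/
noncomputable def eucl (v : R3) : ℝ := Real.sqrt (∑ i, v i ^ 2)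

/-- The Euclidean (Frobenius) norm of a `3 × 3` matrix. -/
noncomputable def frob (A : Fin 3 → Fin 3 → ℝ) : ℝ := Real.sqrt (∑ i, ∑ k, A i k ^ 2)

/-- `v` is a weak partial derivative of `u` in the `k`-th coordinate direction on `Ω`:
integration by parts against all smooth test functions compactly supported in `Ω`. -/
def IsWeakPartial (Ω : Set R3) (k : Fin 3) (u v : R3 → ℝ) : Prop :=
  ∀ φ : R3 → ℝ, ContDiff ℝ ∞ φ → HasCompactSupport φ → tsupport φ ⊆ Ω →
    ∫ x in Ω, u x * fderiv ℝ φ x (Pi.single k 1) = - ∫ x in Ω, v x * φ x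

/-- `f` lies in `W^{1,p}(Ω; R3)` with weak derivative matrix `Df` (entry `Df x i k` is the weak
partial derivative in direction `k` of the `i`-th component): components and weak first partial
derivatives lie in `L^p(Ω)`. -/
structure IsW1p (p : ℝ) (Ω : Set R3) (f : R3 → R3) (Df : R3 → Fin 3 → Fin 3 → ℝ) : Prop where
  memLp : ∀ i, MemLp (fun x => f x i) (ENNReal.ofReal p) (volume.restrict Ω)
  memLp_deriv : ∀ i k, MemLp (fun x => Df x i k) (ENNReal.ofReal p) (volume.restrict Ω)
  weak : ∀ i k, IsWeakPartial Ω k (fun x => f x i) (fun x => Df x i k)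

/-- `f` restricts to a homeomorphism of `Ω` onto `Λ`. -/
def IsHomeoOn (Ω Λ : Set R3) (f : R3 → R3) : Prop :=
  BijOn f Ω Λ ∧ ContinuousOn f Ω ∧ ∃ g : R3 → R3, ContinuousOn g Λ ∧ InvOn g f Ω Λ

/-- `f` restricts to a `C^∞` diffeomorphism of `Ω` onto `Λ` (smooth bijection, smooth inverse). -/
def IsDiffeoOn (Ω Λ : Set R3) (f : R3 → R3) : Prop :=
  BijOn f Ω Λ ∧ ContDiffOn ℝ ∞ f Ω ∧ ∃ g : R3 → R3, ContDiffOn ℝ ∞ g Λ ∧ InvOn g f Ω Λ

/-- The classical Jacobian matrix: entry `i k` is the `k`-th partial derivative of component `i`. -/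
noncomputable def jac (F : R3 → R3) (x : R3) : Fin 3 → Fin 3 → ℝ :=
  fun i k => fderiv ℝ F x (Pi.single k 1) i

/-- `f` (with weak derivative `Df`) is diffeomorphically approximable in `W^{1,p}`: there are
diffeomorphisms `F j` of `Ω` onto the same `Λ`, each in `W^{1,p}(Ω; R3)`, with
`∫_Ω |F j - f|^p + |D(F j) - Df|^p → 0`. -/
def DiffeoApproximable (p : ℝ) (Ω Λ : Set R3) (f : R3 → R3) (Df : R3 → Fin 3 → Fin 3 → ℝ) : Prop :=
  ∃ F : ℕ → R3 → R3, (∀ j, IsDiffeoOn Ω Λ (F j)) ∧ (∀ j, IsW1p p Ω (F j) (jac (F j))) ∧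
    Tendsto (fun j => ∫⁻ x in Ω, ENNReal.ofReal
      (eucl (F j x - f x) ^ p + frob (jac (F j) x - Df x) ^ p)) atTop (𝓝 0)

/-- The open unit cube `(0,1)^3`. -/
def cube : Set R3 := {x | ∀ i, 0 < x i ∧ x i < 1}

/-- `f` is an increasing triangular (Knothe-Rosenblatt type) map on `Ω`: the `i`-th component
depends only on the coordinates `x j`, `j ≤ i`, and is strictly increasing in `x i`. -/
def IsIncrTriangularOn (Ω : Set R3) (f : R3 → R3) : Prop :=
  ∀ i, ∀ x ∈ Ω, ∀ y ∈ Ω, (∀ j < i, x j = y j) →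
    (x i = y i → f x i = f y i) ∧ (x i < y i → f x i < f y i)

end Vale.Agent.P073
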