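import Vale.Agent.P073.Kernel

namespace Vale.Agent.P073

open MeasureTheory Set Filter Topology
open scoped ENNReal ContDiff

lemma update_mem_cube {x : R3} (hx : x ∈ cube) (i : Fin 3) {t : ℝ} (h0 : 0 < t) (h1 : t < 1) :
    Function.update x i t ∈ cube := by
  intro j
  by_cases hj : j = i
  · subst hj
    simpa using ⟨h0, h1⟩
  · simpa [Function.update_of_ne hj] using hx j

/-- equality of the first coordinates follows from equality of the first components -/
lemma tri_coord_eq {F : R3 → R3} (htri : IsIncrTriangularOn cube F) {x y : R3} (hx : x ∈ cube)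
    (hy : y ∈ cube) (i : Fin 3) (h : ∀ j ≤ i, F x j = F y j) : ∀ j ≤ i, x j = y j := by
  intro j
  induction j using WellFoundedLT.induction with
  | ind j ih =>
    intro hj
    have hlt : ∀ l < j, x l = y l := fun l hl => ih l hl (le_trans hl.le hj)
    rcases lt_trichotomy (x j) (y j) with hlt' | heq | hgt
    · exact absurd (h j hj) ((htri j x hx y hy hlt).2 hlt').ne
    · exact heq
    · exact absurd (h j hj).symm ((htri j y hy x hx (fun l hl => (hlt l hl).symm)).2 hgt).ne

lemma tri_injOn {F : R3 → R3} (htri : IsIncrTriangularOn cube F) : InjOn F cube := by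
  intro x hx y hy hxy
  funext j
  exact tri_coord_eq htri hx hy 2 (fun l _ => congrFun hxy l) j (Fin.le_last j)

lemma tri_dep {F : R3 → R3} (htri : IsIncrTriangularOn cube F) {x y : R3} (hx : x ∈ cube)
    (hy : y ∈ cube) (i : Fin 3) (h : ∀ j ≤ i, x j = y j) : F x i = F y i :=
  (htri i x hx y hy (fun j hj => h j hj.le)).1 (h i le_rfl)

/-- coordinatewise surjectivity -/
def CoordSurj (F : R3 → R3) : Prop :=
  ∀ i, ∀ x ∈ cube, ∀ y : ℝ, 0 < y → y < 1 → ∃ t : ℝ, 0 < t ∧ t < 1 ∧ F (Function.update x i t) i = y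

lemma tri_surjOn {F : R3 → R3} (htri : IsIncrTriangularOn cube F) (hs : CoordSurj F) :
    SurjOn F cube cube := by
  intro y hy
  have hc : (fun _ => 1/2 : R3) ∈ cube := fun i => by norm_num
  obtain ⟨t0, h00, h01, ht0⟩ := hs 0 _ hc (y 0) (hy 0).1 (hy 0).2
  have hc1 := update_mem_cube hc 0 h00 h01
  obtain ⟨t1, h10, h11, ht1⟩ := hs 1 _ hc1 (y 1) (hy 1).1 (hy 1).2
  have hc2 := update_mem_cube hc1 1 h10 h11
  obtain ⟨t2, h20, h21, ht2⟩ := hs 2 _ hc2 (y 2) (hy 2).1 (hy 2).2
  have hc3 := update_mem_cube hc2 2 h20 h21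
  refine ⟨_, hc3, ?_⟩
  funext i
  fin_cases i
  · show F _ 0 = y 0
    rw [← ht0]
    apply tri_dep htri hc3 hc1 0
    intro j hj
    have : j = 0 := le_antisymm hj (Fin.zero_le j)
    subst this
    simp
  · show F _ 1 = y 1
    rw [← ht1]
    apply tri_dep htri hc3 hc2 1
    intro j hj
    have hne : j ≠ 2 := by
      intro h2
      subst h2
      exact absurd hj (by decide)
    simp [Function.update_of_ne hne]
  · exact ht2

/-- coordinatewise surjectivity of an increasing triangular bijection of the cube -/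
lemma coordSurj_of_surjOn {F : R3 → R3} (htri : IsIncrTriangularOn cube F)
    (hmaps : MapsTo F cube cube) (hsurj : SurjOn F cube cube) : CoordSurj F := by
  intro i x hx y h0 h1
  have hY : Function.update (F x) i y ∈ cube := update_mem_cube (hmaps hx) i h0 h1
  obtain ⟨x', hx', hFx'⟩ := hsurj hY
  have hlt : ∀ j < i, x' j = x j := by
    intro j hj
    apply tri_coord_eq htri hx' hx j _ j le_rfl
    intro l hl
    have hne : l ≠ i := (lt_of_le_of_lt hl hj).ne
    rw [hFx', Function.update_of_ne hne]
  refine ⟨x' i, (hx' i).1, (hx' i).2, ?_⟩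
  have h2 : F (Function.update x i (x' i)) i = F x' i := by
    apply tri_dep htri (update_mem_cube hx i (hx' i).1 (hx' i).2) hx' i
    intro j hj
    rcases hj.lt_or_eq with hj' | hj'
    · rw [Function.update_of_ne hj'.ne, hlt j hj']
    · subst hj'
      simp
  rw [h2, hFx']
  simp

end Vale.Agent.P073
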