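import Vale.Agent.P073.Diffeo

namespace Vale.Agent.P073

open MeasureTheory Set Filter Topology
open scoped ENNReal ContDiff

lemma eventually_add_smul_mem_cube {x : R3} (hx : x ∈ cube) (v : R3) :
    ∀ᶠ h : ℝ in 𝓝 0, x + h • v ∈ cube := by
  have hc : Continuous (fun h : ℝ => x + h • v) := by fun_prop
  have h0 : (fun h : ℝ => x + h • v) 0 ∈ cube := by simpa using hx
  exact hc.continuousAt.eventually (cube_isOpen.mem_nhds h0)

lemma tri_fderiv_zero {F : R3 → R3} (htri : IsIncrTriangularOn cube F) {x : R3} (hx : x ∈ cube)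
    (hd : DifferentiableAt ℝ F x) {i k : Fin 3} (hik : i < k) :
    fderiv ℝ F x (Pi.single k 1) i = 0 := by
  have h1 : HasDerivAt (fun h : ℝ => F (x + h • Pi.single k 1)) (fderiv ℝ F x (Pi.single k 1)) 0 :=
    hd.hasFDerivAt.hasLineDerivAt _
  have h2 : HasDerivAt (fun h : ℝ => F (x + h • Pi.single k 1) i)
      (fderiv ℝ F x (Pi.single k 1) i) 0 := (hasDerivAt_pi.mp h1) i
  have h3 : (fun h : ℝ => F (x + h • Pi.single k 1) i) =ᶠ[𝓝 0] fun _ => F x i := by
    filter_upwards [eventually_add_smul_mem_cube hx (Pi.single k 1)] with h hh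
    apply tri_dep htri hh hx i
    intro j hj
    have hne : j ≠ k := (lt_of_le_of_lt hj hik).ne
    simp [Pi.single_eq_of_ne hne]
  have h4 : HasDerivAt (fun h : ℝ => F (x + h • Pi.single k 1) i) 0 0 :=
    (hasDerivAt_const (0:ℝ) (F x i)).congr_of_eventuallyEq h3
  exact h2.unique h4

lemma tri_fderiv_injective {F : R3 → R3} (htri : IsIncrTriangularOn cube F) {x : R3} (hx : x ∈ cube)
    (hd : DifferentiableAt ℝ F x) (hpos : ∀ i, 0 < fderiv ℝ F x (Pi.single i 1) i) (v : R3)
    (hv : fderiv ℝ F x v = 0) : v = 0 := by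
  have hdec : v = v 0 • (Pi.single 0 1 : R3) + v 1 • (Pi.single 1 1 : R3) + v 2 • (Pi.single 2 1 : R3) := by
    ext j
    fin_cases j <;> simp
  have hL : fderiv ℝ F x v = v 0 • fderiv ℝ F x (Pi.single 0 1) + v 1 • fderiv ℝ F x (Pi.single 1 1)
      + v 2 • fderiv ℝ F x (Pi.single 2 1) := by
    conv_lhs => rw [hdec]
    simp only [map_add, map_smul]
  rw [hv] at hL
  have z01 := tri_fderiv_zero htri hx hd (i := 0) (k := 1) (by decide)
  have z02 := tri_fderiv_zero htri hx hd (i := 0) (k := 2) (by decide)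
  have z12 := tri_fderiv_zero htri hx hd (i := 1) (k := 2) (by decide)
  have e0 := congrFun hL 0
  have e1 := congrFun hL 1
  have e2 := congrFun hL 2
  simp only [Pi.zero_apply, Pi.add_apply, Pi.smul_apply, smul_eq_mul, z01, z02, z12, mul_zero,
    add_zero] at e0 e1 e2
  have v0 : v 0 = 0 := by
    rcases mul_eq_zero.mp e0.symm with h | h
    · exact h
    · exact absurd h (hpos 0).ne'
  rw [v0] at e1 e2
  simp only [zero_mul, zero_add] at e1 e2
  have v1 : v 1 = 0 := by
    rcases mul_eq_zero.mp e1.symm with h | h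
    · exact h
    · exact absurd h (hpos 1).ne'
  rw [v1] at e2
  simp only [zero_mul, zero_add] at e2
  have v2 : v 2 = 0 := by
    rcases mul_eq_zero.mp e2.symm with h | h
    · exact h
    · exact absurd h (hpos 2).ne'
  ext j
  fin_cases j
  · exact v0
  · exact v1
  · exact v2

lemma tri_isDiffeoOn {F : R3 → R3} (hsm : ContDiffOn ℝ ∞ F cube) (hmaps : MapsTo F cube cube)
    (htri : IsIncrTriangularOn cube F) (hs : CoordSurj F)
    (hpos : ∀ x ∈ cube, ∀ i, 0 < fderiv ℝ F x (Pi.single i 1) i) : IsDiffeoOn cube cube F := by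
  have hbij : BijOn F cube cube := ⟨hmaps, tri_injOn htri, tri_surjOn htri hs⟩
  refine ⟨hbij, hsm, Function.invFunOn F cube, ?_, hbij.invOn_invFunOn⟩
  intro y hy
  have hinv := hbij.invOn_invFunOn
  set x := Function.invFunOn F cube y with hxdef
  have hx : x ∈ cube := hbij.surjOn.mapsTo_invFunOn hy
  have hFx : F x = y := hinv.2 hy
  have hcd : ContDiffAt ℝ ∞ F x := hsm.contDiffAt (cube_isOpen.mem_nhds hx)
  have hd : DifferentiableAt ℝ F x := hcd.differentiableAt (by simp)
  have hdet : (fderiv ℝ F x).det ≠ 0 := by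
    intro h0
    have hker := LinearMap.bot_lt_ker_of_det_eq_zero (f := (fderiv ℝ F x : R3 →ₗ[ℝ] R3)) h0
    obtain ⟨v, hv, hv0⟩ := SetLike.exists_of_lt hker
    apply hv0
    have : v = 0 := tri_fderiv_injective htri hx hd (hpos x hx) v (by simpa using hv)
    simp [this]
  set L' := (fderiv ℝ F x).toContinuousLinearEquivOfDetNeZero hdet with hL'
  have hf' : HasFDerivAt F (L' : R3 →L[ℝ] R3) x := by
    rw [hL', ContinuousLinearMap.coe_toContinuousLinearEquivOfDetNeZero]
    exact hd.hasFDerivAt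
  have hn : (∞ : WithTop ℕ∞) ≠ 0 := by simp
  have hloc := hcd.to_localInverse hf' hn
  have hstrict := hcd.hasStrictFDerivAt' hf' hn
  have hev : Function.invFunOn F cube =ᶠ[𝓝 (F x)] hcd.localInverse hf' hn := by
    filter_upwards [hstrict.eventually_right_inverse,
      hstrict.localInverse_tendsto.eventually (cube_isOpen.mem_nhds hx)] with y' h1 h2
    have h3 : Function.invFunOn F cube (F (hstrict.localInverse F L' x y'))
        = hstrict.localInverse F L' x y' := hinv.1 h2
    rw [h1] at h3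
    exact h3
  have := hloc.congr_of_eventuallyEq hev
  rw [hFx] at this
  exact this.contDiffWithinAt

end Vale.Agent.P073
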