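import Vale.Agent.P073.LpConv3

namespace Vale.Agent.P073

open MeasureTheory Set Filter Topology
open scoped ENNReal ContDiff

lemma eucl_le_sum (v : R3) : eucl v ≤ ∑ i, |v i| := by
  unfold eucl
  rw [Real.sqrt_le_iff]
  constructor
  · exact Finset.sum_nonneg fun i _ => abs_nonneg _
  · calc ∑ i, v i ^ 2 = ∑ i, |v i| ^ 2 := by simp
      _ ≤ (∑ i, |v i|) ^ 2 := Finset.sum_sq_le_sq_sum_of_nonneg fun i _ => abs_nonneg _

lemma frob_le_sum (M : Fin 3 → Fin 3 → ℝ) : frob M ≤ ∑ q : Fin 3 × Fin 3, |M q.1 q.2| := by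
  unfold frob
  rw [Real.sqrt_le_iff]
  constructor
  · exact Finset.sum_nonneg fun i _ => abs_nonneg _
  · calc ∑ i, ∑ k, M i k ^ 2 = ∑ q : Fin 3 × Fin 3, |M q.1 q.2| ^ 2 := by
          rw [Fintype.sum_prod_type]
          simp
      _ ≤ (∑ q : Fin 3 × Fin 3, |M q.1 q.2|) ^ 2 :=
          Finset.sum_sq_le_sq_sum_of_nonneg fun i _ => abs_nonneg _

lemma eucl_nonneg (v : R3) : 0 ≤ eucl v := Real.sqrt_nonneg _
lemma frob_nonneg (M : Fin 3 → Fin 3 → ℝ) : 0 ≤ frob M := Real.sqrt_nonneg _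

lemma eucl_rpow_le {p : ℝ} (hp : 1 ≤ p) (v : R3) : eucl v ^ p ≤ 9 ^ (p - 1) * ∑ i, |v i| ^ p := by
  calc eucl v ^ p ≤ (∑ i, |v i|) ^ p :=
        Real.rpow_le_rpow (eucl_nonneg v) (eucl_le_sum v) (by linarith)
    _ ≤ ((Finset.univ : Finset (Fin 3)).card : ℝ) ^ (p - 1) * ∑ i, |v i| ^ p :=
        Real.rpow_sum_le_const_mul_sum_rpow _ _ hp
    _ ≤ 9 ^ (p - 1) * ∑ i, |v i| ^ p := by
        apply mul_le_mul_of_nonneg_right
        · apply Real.rpow_le_rpow (by simp) (by simp; norm_num) (by linarith)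
        · exact Finset.sum_nonneg fun i _ => Real.rpow_nonneg (abs_nonneg _) _

lemma frob_rpow_le {p : ℝ} (hp : 1 ≤ p) (M : Fin 3 → Fin 3 → ℝ) :
    frob M ^ p ≤ 9 ^ (p - 1) * ∑ i, ∑ k, |M i k| ^ p := by
  calc frob M ^ p ≤ (∑ q : Fin 3 × Fin 3, |M q.1 q.2|) ^ p :=
        Real.rpow_le_rpow (frob_nonneg M) (frob_le_sum M) (by linarith)
    _ ≤ ((Finset.univ : Finset (Fin 3 × Fin 3)).card : ℝ) ^ (p - 1)
          * ∑ q : Fin 3 × Fin 3, |M q.1 q.2| ^ p :=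
        Real.rpow_sum_le_const_mul_sum_rpow _ _ hp
    _ = 9 ^ (p - 1) * ∑ i, ∑ k, |M i k| ^ p := by
        rw [Fintype.sum_prod_type]
        simp

lemma ofReal_abs_rpow {p : ℝ} (hp : 1 ≤ p) (a : ℝ) : ENNReal.ofReal (|a| ^ p) = ‖a‖ₑ ^ p := by
  rw [Real.enorm_eq_ofReal_abs, ENNReal.ofReal_rpow_of_nonneg (abs_nonneg a) (by linarith)]

lemma pointwise_bound {p : ℝ} (hp : 1 ≤ p) (d : R3) (e : Fin 3 → Fin 3 → ℝ) :
    ENNReal.ofReal (eucl d ^ p + frob e ^ p)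
      ≤ ENNReal.ofReal (9 ^ (p - 1)) * (∑ i, ‖d i‖ₑ ^ p + ∑ i, ∑ k, ‖e i k‖ₑ ^ p) := by
  have h1 : eucl d ^ p + frob e ^ p
      ≤ 9 ^ (p - 1) * (∑ i, |d i| ^ p + ∑ i, ∑ k, |e i k| ^ p) := by
    rw [mul_add]
    exact add_le_add (eucl_rpow_le hp d) (frob_rpow_le hp e)
  refine le_trans (ENNReal.ofReal_le_ofReal h1) (le_of_eq ?_)
  have n1 : ∀ i, 0 ≤ |d i| ^ p := fun i => Real.rpow_nonneg (abs_nonneg _) _
  have n2 : ∀ i k, 0 ≤ |e i k| ^ p := fun i k => Real.rpow_nonneg (abs_nonneg _) _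
  rw [ENNReal.ofReal_mul (by positivity), ENNReal.ofReal_add (Finset.sum_nonneg fun i _ => n1 i)
    (Finset.sum_nonneg fun i _ => Finset.sum_nonneg fun k _ => n2 i k),
    ENNReal.ofReal_sum_of_nonneg (fun i _ => n1 i),
    ENNReal.ofReal_sum_of_nonneg (fun i _ => Finset.sum_nonneg fun k _ => n2 i k)]
  congr 2
  · apply Finset.sum_congr rfl
    intro i _
    exact ofReal_abs_rpow hp _
  · apply Finset.sum_congr rfl
    intro i _
    rw [ENNReal.ofReal_sum_of_nonneg (fun k _ => n2 i k)]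
    apply Finset.sum_congr rfl
    intro k _
    exact ofReal_abs_rpow hp _

lemma lint_eq_eLpNorm_rpow {p : ℝ} (hp : 1 ≤ p) (w : R3 → ℝ) :
    ∫⁻ x in cube, ‖w x‖ₑ ^ p = (eLpNorm w (ENNReal.ofReal p) (volume.restrict cube)) ^ p := by
  rw [eLpNorm_eq_lint hp, ← ENNReal.rpow_mul, one_div_mul_cancel (by linarith), ENNReal.rpow_one]

lemma E_le {p : ℝ} (hp : 1 ≤ p) {d : R3 → R3} {e : R3 → Fin 3 → Fin 3 → ℝ}
    (hd : ∀ i, Measurable fun x => d x i) (he : ∀ i k, Measurable fun x => e x i k) {δ : ℝ≥0∞}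
    (hdδ : ∀ i, eLpNorm (fun x => d x i) (ENNReal.ofReal p) (volume.restrict cube) ≤ δ)
    (heδ : ∀ i k, eLpNorm (fun x => e x i k) (ENNReal.ofReal p) (volume.restrict cube) ≤ δ) :
    ∫⁻ x in cube, ENNReal.ofReal (eucl (d x) ^ p + frob (e x) ^ p)
      ≤ ENNReal.ofReal (9 ^ (p - 1)) * (12 * δ ^ p) := by
  have hp0 : 0 ≤ p := by linarith
  calc ∫⁻ x in cube, ENNReal.ofReal (eucl (d x) ^ p + frob (e x) ^ p)
      ≤ ∫⁻ x in cube, ENNReal.ofReal (9 ^ (p - 1))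
          * (∑ i, ‖d x i‖ₑ ^ p + ∑ i, ∑ k, ‖e x i k‖ₑ ^ p) :=
        lintegral_mono fun x => pointwise_bound hp (d x) (e x)
    _ = ENNReal.ofReal (9 ^ (p - 1))
          * ∫⁻ x in cube, (∑ i, ‖d x i‖ₑ ^ p + ∑ i, ∑ k, ‖e x i k‖ₑ ^ p) := by
        rw [lintegral_const_mul' _ _ (by simp)]
    _ = ENNReal.ofReal (9 ^ (p - 1))
          * ((∑ i, ∫⁻ x in cube, ‖d x i‖ₑ ^ p) + ∑ i, ∑ k, ∫⁻ x in cube, ‖e x i k‖ₑ ^ p) := by
        congr 1
        rw [lintegral_add_left (Finset.measurable_sum _ fun i _ => (hd i).enorm.pow_const p),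
          lintegral_finset_sum _ (fun i _ => (hd i).enorm.pow_const p),
          lintegral_finset_sum _
            (fun i _ => Finset.measurable_sum _ fun k _ => (he i k).enorm.pow_const p)]
        congr 1
        apply Finset.sum_congr rfl
        intro i _
        rw [lintegral_finset_sum _ (fun k _ => (he i k).enorm.pow_const p)]
    _ ≤ ENNReal.ofReal (9 ^ (p - 1)) * (∑ _i : Fin 3, δ ^ p + ∑ _i : Fin 3, ∑ _k : Fin 3, δ ^ p) := by
        gcongr with i _ i _ k _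
        · rw [lint_eq_eLpNorm_rpow hp (fun x => d x i)]
          exact ENNReal.rpow_le_rpow (hdδ i) hp0
        · rw [lint_eq_eLpNorm_rpow hp (fun x => e x i k)]
          exact ENNReal.rpow_le_rpow (heδ i k) hp0
    _ = ENNReal.ofReal (9 ^ (p - 1)) * (12 * δ ^ p) := by
        congr 1
        simp
        ring

end Vale.Agent.P073
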