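import Vale.Agent.P073.Kernel

namespace Vale.Agent.P073

open MeasureTheory Set Filter Topology
open scoped ENNReal ContDiff

lemma continuous_mul_of_tsupport {Ω : Set R3} (hΩ : IsOpen Ω) {a b : R3 → ℝ} (ha : ContinuousOn a Ω)
    (hb : Continuous b) (hs : tsupport b ⊆ Ω) : Continuous (fun x => a x * b x) := by
  rw [continuous_iff_continuousAt]
  intro x
  by_cases hx : x ∈ Ω
  · exact (ha.continuousAt (hΩ.mem_nhds hx)).mul hb.continuousAt
  · have hx' : x ∉ tsupport b := fun h => hx (hs h)
    have hev : (fun x => a x * b x) =ᶠ[𝓝 x] fun _ => 0 := by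
      filter_upwards [(isClosed_tsupport b).isOpen_compl.mem_nhds hx'] with y hy
      rw [image_eq_zero_of_notMem_tsupport hy, mul_zero]
    exact continuousAt_const.congr hev.symm

lemma isWeakPartial_of_contDiffOn {Ω : Set R3} (hΩ : IsOpen Ω) {u : R3 → ℝ}
    (hu : ContDiffOn ℝ ∞ u Ω) (k : Fin 3) :
    IsWeakPartial Ω k u (fun x => fderiv ℝ u x (Pi.single k 1)) := by
  intro φ hφ hc hs
  set v : R3 := Pi.single k 1 with hv
  have hdu : ContinuousOn (fun x => fderiv ℝ u x v) Ω :=
    (hu.continuousOn_fderiv_of_isOpen hΩ (by simp)).clm_apply continuousOn_const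
  have hdφ : Continuous (fun x => fderiv ℝ φ x v) :=
    (hφ.continuous_fderiv (by simp)).clm_apply continuous_const
  have hsd : tsupport (fun x => fderiv ℝ φ x v) ⊆ Ω := by
    refine Subset.trans ?_ hs
    apply closure_minimal _ (isClosed_tsupport φ)
    intro x hx
    apply support_fderiv_subset ℝ
    intro h0
    apply hx
    simp [h0]
  have I1 : Integrable (fun x => fderiv ℝ u x v * φ x) :=
    (continuous_mul_of_tsupport hΩ hdu hφ.continuous hs).integrable_of_hasCompactSupport hc.mul_left
  have I2 : Integrable (fun x => u x * fderiv ℝ φ x v) :=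
    (continuous_mul_of_tsupport hΩ hu.continuousOn hdφ hsd).integrable_of_hasCompactSupport
      (hc.fderiv_apply ℝ v).mul_left
  have I3 : Integrable (fun x => u x * φ x) :=
    (continuous_mul_of_tsupport hΩ hu.continuousOn hφ.continuous hs).integrable_of_hasCompactSupport
      hc.mul_left
  have h := integral_mul_fderiv_eq_neg_fderiv_mul_of_integrable (μ := volume) I1 I2 I3
    (fun x hx => (hu.contDiffAt (hΩ.mem_nhds (hs hx))).differentiableAt (by simp))
    (fun x _ => hφ.differentiable (by simp) x)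
  have e1 : ∫ x in Ω, u x * fderiv ℝ φ x v = ∫ x, u x * fderiv ℝ φ x v := by
    apply setIntegral_eq_integral_of_forall_compl_eq_zero
    intro x hx
    have : (fun x => fderiv ℝ φ x v) x = 0 :=
      image_eq_zero_of_notMem_tsupport (f := fun x => fderiv ℝ φ x v) fun h => hx (hsd h)
    simp only at this
    rw [this, mul_zero]
  have e2 : ∫ x in Ω, fderiv ℝ u x v * φ x = ∫ x, fderiv ℝ u x v * φ x := by
    apply setIntegral_eq_integral_of_forall_compl_eq_zero
    intro x hx
    rw [image_eq_zero_of_notMem_tsupport fun h => hx (hs h), mul_zero]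
  rw [e1, e2, h]

lemma IsWeakPartial.congr {Ω : Set R3} (hΩ : MeasurableSet Ω) {k : Fin 3} {u u' v v' : R3 → ℝ}
    (h : IsWeakPartial Ω k u v) (hu : ∀ x ∈ Ω, u x = u' x)
    (hv : v =ᵐ[volume.restrict Ω] v') : IsWeakPartial Ω k u' v' := by
  intro φ hφ hc hs
  have h1 := h φ hφ hc hs
  have e1 : ∫ x in Ω, u' x * fderiv ℝ φ x (Pi.single k 1) = ∫ x in Ω, u x * fderiv ℝ φ x (Pi.single k 1) := by
    apply setIntegral_congr_fun hΩ
    intro x hx
    simp only
    rw [hu x hx]
  have e2 : ∫ x in Ω, v' x * φ x = ∫ x in Ω, v x * φ x := by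
    apply integral_congr_ae
    filter_upwards [hv] with x hx
    rw [hx]
  rw [e1, e2, h1]

end Vale.Agent.P073
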