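import Vale.Agent.P073.Final1
import Vale.Agent.P073.Approx2
import Vale.Agent.P073.Weak

namespace Vale.Agent.P073

open MeasureTheory Set Filter Topology
open scoped ENNReal ContDiff

lemma jac_FF {f : R3 → R3} (hcont : ContinuousOn f cube) (hmaps : MapsTo f cube cube)
    {κ : ℝ} (hκ0 : 0 < κ) (hκ : κ ≤ 1/2) (η : ℝ) {v : Fin 3 → Fin 3 → R3 → ℝ}
    (hweak : ∀ i k, IsWeakPartial cube k (uc f i) (v i k)) {x : R3} (hx : x ∈ cube) (i k : Fin 3) :
    jac (FF f κ η) x i k = (1 - η) * A κ 1 k (v i k) x + η * (if i = k then 1 else 0) := by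
  unfold jac
  rw [FF_fderiv hcont hmaps hκ0 hκ η hx]
  unfold aa
  rw [A0_fderiv hκ0 hκ i k (uc_locallyIntegrable hcont hmaps i) (hweak i k) hx]

lemma FF_isDiffeoOn {f : R3 → R3} (hcont : ContinuousOn f cube) (hmaps : MapsTo f cube cube)
    (hsurj : SurjOn f cube cube) (htri : IsIncrTriangularOn cube f)
    {κ : ℝ} (hκ0 : 0 < κ) (hκ : κ ≤ 1/2) {η : ℝ} (hη0 : 0 < η) (hη1 : η < 1) :
    IsDiffeoOn cube cube (FF f κ η) :=
  tri_isDiffeoOn (FF_contDiffOn hcont hmaps hκ0 hκ η) (FF_mapsTo hcont hmaps κ hη0 hη1)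
    (FF_tri hcont hmaps htri hκ0.le hκ hη0 hη1)
    (FF_coordSurj hcont hmaps htri (coordSurj_of_surjOn htri hmaps hsurj) hκ0 hκ η)
    (fun _ hx i => FF_diag_pos hcont hmaps htri hκ0 hκ hη0 hη1 hx i)

lemma memLp_A {p κ c : ℝ} (hκ0 : 0 ≤ κ) (hκ : κ ≤ 1/2) (hc0 : 0 ≤ c) (hc1 : c ≤ 1)
    (hp : 1 ≤ p) (k : Fin 3) {w : R3 → ℝ} (hw : Measurable w)
    (hwp : MemLp w (ENNReal.ofReal p) (volume.restrict cube)) :
    MemLp (A κ c k w) (ENNReal.ofReal p) (volume.restrict cube) := by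
  refine ⟨(A_stronglyMeasurable hw).aestronglyMeasurable, ?_⟩
  refine lt_of_le_of_lt (eLpNorm_A_le hκ0 hκ hc0 hc1 hp k hw) ?_
  exact ENNReal.mul_lt_top (Cp_ne_top hp).lt_top hwp.2

lemma cube_finite : IsFiniteMeasure (volume.restrict cube) := ⟨by simp [cube_volume]⟩

lemma FF_isW1p {p : ℝ} (hp : 1 ≤ p) {f : R3 → R3} (hcont : ContinuousOn f cube)
    (hmaps : MapsTo f cube cube) {κ : ℝ} (hκ0 : 0 < κ) (hκ : κ ≤ 1/2) {η : ℝ} (hη0 : 0 < η)
    (hη1 : η < 1) {v : Fin 3 → Fin 3 → R3 → ℝ} (hvm : ∀ i k, Measurable (v i k))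
    (hvp : ∀ i k, MemLp (v i k) (ENNReal.ofReal p) (volume.restrict cube))
    (hweak : ∀ i k, IsWeakPartial cube k (uc f i) (v i k)) :
    IsW1p p cube (FF f κ η) (jac (FF f κ η)) := by
  have hsm := FF_contDiffOn hcont hmaps hκ0 hκ η
  have := cube_finite
  constructor
  · intro i
    apply MemLp.of_bound (C := 1)
    · exact (((continuous_apply i).comp_continuousOn hsm.continuousOn).aestronglyMeasurable
        cube_measurableSet)
    · filter_upwards [ae_restrict_mem cube_measurableSet] with x hx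
      have h := FF_mapsTo hcont hmaps κ hη0 hη1 hx i
      rw [Real.norm_eq_abs, abs_of_pos h.1]
      exact h.2.le
  · intro i k
    have h1 : MemLp (fun x => (1 - η) * A κ 1 k (v i k) x + η * (if i = k then 1 else 0))
        (ENNReal.ofReal p) (volume.restrict cube) :=
      ((memLp_A hκ0.le hκ zero_le_one le_rfl hp k (hvm i k) (hvp i k)).const_mul (1 - η)).add
        (memLp_const _)
    apply h1.ae_eq
    filter_upwards [ae_restrict_mem cube_measurableSet] with x hx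
    rw [jac_FF hcont hmaps hκ0 hκ η hweak hx]
  · intro i k
    have hsi : ContDiffOn ℝ ∞ (fun x => FF f κ η x i) cube := (contDiffOn_pi.mp hsm) i
    apply (isWeakPartial_of_contDiffOn cube_isOpen hsi k).congr cube_measurableSet (fun _ _ => rfl)
    filter_upwards [ae_restrict_mem cube_measurableSet] with x hx
    have hd : DifferentiableAt ℝ (FF f κ η) x :=
      (hsm.contDiffAt (cube_isOpen.mem_nhds hx)).differentiableAt (by simp)
    have h2 : HasFDerivAt (fun y => FF f κ η y i)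
        ((ContinuousLinearMap.proj i : R3 →L[ℝ] ℝ) ∘L fderiv ℝ (FF f κ η) x) x :=
      (ContinuousLinearMap.proj i : R3 →L[ℝ] ℝ).hasFDerivAt.comp x hd.hasFDerivAt
    rw [h2.fderiv]
    rfl

lemma eLpNorm_comb_le {p : ℝ} (hp : 1 ≤ p) {η : ℝ} (hη0 : 0 < η) (hη1 : η < 1) {g h : R3 → ℝ}
    (hg : Measurable g) (hh : Measurable h) :
    eLpNorm (fun x => (1 - η) * g x + η * h x) (ENNReal.ofReal p) (volume.restrict cube)
      ≤ eLpNorm g (ENNReal.ofReal p) (volume.restrict cube)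
        + ENNReal.ofReal η * eLpNorm h (ENNReal.ofReal p) (volume.restrict cube) := by
  have hp' : (1:ℝ≥0∞) ≤ ENNReal.ofReal p := by simpa using hp
  have e : (fun x => (1 - η) * g x + η * h x) = ((1 - η) • g) + (η • h) := by
    funext x
    simp
  rw [e]
  refine le_trans (eLpNorm_add_le (hg.const_smul _).aestronglyMeasurable
    (hh.const_smul _).aestronglyMeasurable hp') ?_
  rw [eLpNorm_const_smul, eLpNorm_const_smul]
  have h1 : ‖1 - η‖ₑ ≤ 1 := by
    rw [Real.enorm_eq_ofReal (by linarith), ← ENNReal.ofReal_one]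
    exact ENNReal.ofReal_le_ofReal (by linarith)
  have h2 : ‖η‖ₑ = ENNReal.ofReal η := Real.enorm_eq_ofReal hη0.le
  rw [h2]
  gcongr
  calc ‖1 - η‖ₑ * eLpNorm g (ENNReal.ofReal p) (volume.restrict cube)
      ≤ 1 * eLpNorm g (ENNReal.ofReal p) (volume.restrict cube) := by gcongr
    _ = _ := one_mul _

lemma eventually_ofReal_mul_le {N ε : ℝ≥0∞} (hN : N ≠ ⊤) (hε : ε ≠ 0) :
    ∀ᶠ η : ℝ in 𝓝[>] 0, ENNReal.ofReal η * N ≤ ε := by
  have ht : Tendsto (fun η : ℝ => ENNReal.ofReal η * N) (𝓝 0) (𝓝 (ENNReal.ofReal 0 * N)) :=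
    ENNReal.Tendsto.mul_const (ENNReal.continuous_ofReal.tendsto 0) (Or.inr hN)
  simp only [ENNReal.ofReal_zero, zero_mul] at ht
  exact (ht.eventually_le_const (pos_iff_ne_zero.mpr hε)).filter_mono nhdsWithin_le_nhds

lemma exists_delta {K δ : ℝ≥0∞} (hK0 : K ≠ 0) (hK : K ≠ ⊤) (hδ : δ ≠ 0) {p : ℝ} (hp : 1 ≤ p) :
    ∃ δ' : ℝ≥0∞, δ' ≠ 0 ∧ K * δ' ^ p ≤ δ := by
  refine ⟨(δ / K) ^ (1 / p), ?_, ?_⟩
  · intro h
    rw [ENNReal.rpow_eq_zero_iff] at h
    rcases h with h | h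
    · exact (ENNReal.div_pos hδ hK).ne' h.1
    · have : (0:ℝ) < 1 / p := by positivity
      linarith [h.2]
  · rw [← ENNReal.rpow_mul, one_div_mul_cancel (by linarith), ENNReal.rpow_one,
      ENNReal.mul_div_cancel hK0 hK]

end Vale.Agent.P073
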