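import Vale.Agent.P073.Final2

namespace Vale.Agent.P073

open MeasureTheory Set Filter Topology
open scoped ENNReal ContDiff

lemma eventually_kappa {p : ℝ} (hp : 1 ≤ p) {c : ℝ} (hc0 : 0 ≤ c) (hc1 : c ≤ 1) (k : Fin 3)
    {w : R3 → ℝ} (hw : Measurable w) (hwp : MemLp w (ENNReal.ofReal p) (volume.restrict cube))
    {ε : ℝ≥0∞} (hε : ε ≠ 0) :
    ∀ᶠ κ : ℝ in 𝓝[>] 0,
      eLpNorm (fun x => A κ c k w x - w x) (ENNReal.ofReal p) (volume.restrict cube) ≤ ε := by
  obtain ⟨κ₀, hκ₀, -, h⟩ := exists_kappa_A hp hc0 hc1 k hw hwp hε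
  filter_upwards [Ioc_mem_nhdsGT hκ₀] with κ hκ
  exact h κ hκ.1 hκ.2

theorem exists_approx {p : ℝ} (hp : 1 ≤ p) {f : R3 → R3} {Df : R3 → Fin 3 → Fin 3 → ℝ}
    (hf : IsHomeoOn cube cube f) (hW : IsW1p p cube f Df) (htri : IsIncrTriangularOn cube f)
    {δ : ℝ≥0∞} (hδ : δ ≠ 0) :
    ∃ F : R3 → R3, IsDiffeoOn cube cube F ∧ IsW1p p cube F (jac F) ∧
      ∫⁻ x in cube, ENNReal.ofReal (eucl (F x - f x) ^ p + frob (jac F x - Df x) ^ p) ≤ δ := by
  have := cube_finite
  obtain ⟨hbij, hcont, -⟩ := hf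
  have hmaps := hbij.mapsTo
  have hsurj := hbij.surjOn
  -- measurable representatives of the weak derivatives
  have hrep : ∀ i k, ∃ v : R3 → ℝ, Measurable v ∧ (fun x => Df x i k) =ᵐ[volume.restrict cube] v :=
    fun i k => ⟨(hW.memLp_deriv i k).1.mk _, (hW.memLp_deriv i k).1.stronglyMeasurable_mk.measurable,
      (hW.memLp_deriv i k).1.ae_eq_mk⟩
  choose v hvm hvae using hrep
  have hvp : ∀ i k, MemLp (v i k) (ENNReal.ofReal p) (volume.restrict cube) :=
    fun i k => (hW.memLp_deriv i k).ae_eq (hvae i k)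
  have hweak : ∀ i k, IsWeakPartial cube k (uc f i) (v i k) :=
    fun i k => (hW.weak i k).congr cube_measurableSet (fun x hx => (uc_of_mem hx).symm) (hvae i k)
  have hum : ∀ i, Measurable (uc f i) := uc_measurable hcont
  have hup : ∀ i, MemLp (uc f i) (ENNReal.ofReal p) (volume.restrict cube) := fun i =>
    MemLp.of_bound (hum i).aestronglyMeasurable 1 (ae_of_all _ fun x => uc_norm_le hmaps i x)
  -- the target accuracy
  set K : ℝ≥0∞ := ENNReal.ofReal (9 ^ (p - 1)) * 12 with hK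
  have hK0 : K ≠ 0 := by
    rw [hK]
    apply mul_ne_zero _ (by norm_num)
    simp only [ne_eq, ENNReal.ofReal_eq_zero, not_le]
    positivity
  have hKtop : K ≠ ⊤ := ENNReal.mul_ne_top (by simp) (by norm_num)
  obtain ⟨δ', hδ'0, hδ'⟩ := exists_delta hK0 hKtop hδ hp
  have hhalf : δ' / 2 ≠ 0 := (ENNReal.div_pos hδ'0 (by norm_num)).ne'
  -- choice of κ
  have evκ : ∀ᶠ κ : ℝ in 𝓝[>] 0, κ ≤ 1/2 ∧
      (∀ i, eLpNorm (fun x => A κ 0 i (uc f i) x - uc f i x) (ENNReal.ofReal p)
        (volume.restrict cube) ≤ δ' / 2) ∧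
      (∀ i k, eLpNorm (fun x => A κ 1 k (v i k) x - v i k x) (ENNReal.ofReal p)
        (volume.restrict cube) ≤ δ' / 2) := by
    refine Eventually.and ?_ (Eventually.and ?_ ?_)
    · filter_upwards [Ioc_mem_nhdsGT (show (0:ℝ) < 1/2 by norm_num)] with κ hκ
      exact hκ.2
    · rw [eventually_all]
      intro i
      exact eventually_kappa hp le_rfl zero_le_one i (hum i) (hup i) hhalf
    · rw [eventually_all]
      intro i
      rw [eventually_all]
      intro k
      exact eventually_kappa hp zero_le_one le_rfl k (hvm i k) (hvp i k) hhalf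
  obtain ⟨κ, ⟨hκ, hκu, hκv⟩, hκ0⟩ := (evκ.and self_mem_nhdsWithin).exists
  have hκ0' : (0:ℝ) < κ := hκ0
  -- choice of η
  have hN1 : ∀ i, eLpNorm (fun x : R3 => x i - uc f i x) (ENNReal.ofReal p) (volume.restrict cube) ≠ ⊤ := by
    intro i
    have h1 : MemLp (fun x : R3 => x i) (ENNReal.ofReal p) (volume.restrict cube) := by
      apply MemLp.of_bound (measurable_pi_apply i).aestronglyMeasurable 1
      filter_upwards [ae_restrict_mem cube_measurableSet] with x hx
      rw [Real.norm_eq_abs, abs_of_pos (hx i).1]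
      exact (hx i).2.le
    exact (h1.sub (hup i)).2.ne
  have hN2 : ∀ i k, eLpNorm (fun x : R3 => (if i = k then (1:ℝ) else 0) - v i k x) (ENNReal.ofReal p)
      (volume.restrict cube) ≠ ⊤ := by
    intro i k
    exact ((memLp_const (if i = k then (1:ℝ) else 0)).sub (hvp i k)).2.ne
  have evη : ∀ᶠ η : ℝ in 𝓝[>] 0, η < 1 ∧
      (∀ i, ENNReal.ofReal η * eLpNorm (fun x : R3 => x i - uc f i x) (ENNReal.ofReal p)
        (volume.restrict cube) ≤ δ' / 2) ∧
      (∀ i k, ENNReal.ofReal η * eLpNorm (fun x : R3 => (if i = k then (1:ℝ) else 0) - v i k x)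
        (ENNReal.ofReal p) (volume.restrict cube) ≤ δ' / 2) := by
    refine Eventually.and ?_ (Eventually.and ?_ ?_)
    · filter_upwards [Ioo_mem_nhdsGT (show (0:ℝ) < 1 by norm_num)] with η hη
      exact hη.2
    · rw [eventually_all]
      intro i
      exact eventually_ofReal_mul_le (hN1 i) hhalf
    · rw [eventually_all]
      intro i
      rw [eventually_all]
      intro k
      exact eventually_ofReal_mul_le (hN2 i k) hhalf
  obtain ⟨η, ⟨hη1, hηu, hηv⟩, hη0⟩ := (evη.and self_mem_nhdsWithin).exists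
  have hη0' : (0:ℝ) < η := hη0
  refine ⟨FF f κ η, FF_isDiffeoOn hcont hmaps hsurj htri hκ0' hκ hη0' hη1,
    FF_isW1p hp hcont hmaps hκ0' hκ hη0' hη1 hvm hvp hweak, ?_⟩
  -- the error functions
  set d : R3 → R3 := fun x i => (1 - η) * (A κ 0 i (uc f i) x - uc f i x) + η * (x i - uc f i x)
    with hd
  set e : R3 → Fin 3 → Fin 3 → ℝ := fun x i k =>
    (1 - η) * (A κ 1 k (v i k) x - v i k x) + η * ((if i = k then (1:ℝ) else 0) - v i k x) with he
  have hdm : ∀ i, Measurable fun x => d x i := fun i =>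
    ((((A_stronglyMeasurable (hum i)).measurable).sub (hum i)).const_mul _).add
      (((measurable_pi_apply i).sub (hum i)).const_mul _)
  have hem : ∀ i k, Measurable fun x => e x i k := fun i k =>
    ((((A_stronglyMeasurable (hvm i k)).measurable).sub (hvm i k)).const_mul _).add
      ((measurable_const.sub (hvm i k)).const_mul _)
  have hdδ : ∀ i, eLpNorm (fun x => d x i) (ENNReal.ofReal p) (volume.restrict cube) ≤ δ' := by
    intro i
    refine le_trans (eLpNorm_comb_le hp hη0' hη1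
      (((A_stronglyMeasurable (hum i)).measurable).sub (hum i))
      ((measurable_pi_apply i).sub (hum i))) ?_
    calc _ ≤ δ' / 2 + δ' / 2 := add_le_add (hκu i) (hηu i)
      _ = δ' := ENNReal.add_halves δ'
  have heδ : ∀ i k, eLpNorm (fun x => e x i k) (ENNReal.ofReal p) (volume.restrict cube) ≤ δ' := by
    intro i k
    refine le_trans (eLpNorm_comb_le hp hη0' hη1
      (((A_stronglyMeasurable (hvm i k)).measurable).sub (hvm i k))
      (measurable_const.sub (hvm i k))) ?_
    calc _ ≤ δ' / 2 + δ' / 2 := add_le_add (hκv i k) (hηv i k)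
      _ = δ' := ENNReal.add_halves δ'
  have hae : ∀ᵐ x ∂(volume.restrict cube), ∀ i k, Df x i k = v i k x := by
    rw [ae_all_iff]
    intro i
    rw [ae_all_iff]
    intro k
    exact hvae i k
  have hcongr : ∫⁻ x in cube, ENNReal.ofReal (eucl (FF f κ η x - f x) ^ p
        + frob (jac (FF f κ η) x - Df x) ^ p)
      = ∫⁻ x in cube, ENNReal.ofReal (eucl (d x) ^ p + frob (e x) ^ p) := by
    apply lintegral_congr_ae
    filter_upwards [hae, ae_restrict_mem cube_measurableSet] with x hx hxc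
    have e1 : FF f κ η x - f x = d x := by
      funext i
      simp only [hd, Pi.sub_apply, FF, aa, uc_of_mem hxc]
      ring
    have e2 : jac (FF f κ η) x - Df x = e x := by
      funext i k
      simp only [he, Pi.sub_apply, jac_FF hcont hmaps hκ0' hκ η hweak hxc, hx i k]
      ring
    rw [e1, e2]
  rw [hcongr]
  calc ∫⁻ x in cube, ENNReal.ofReal (eucl (d x) ^ p + frob (e x) ^ p)
      ≤ ENNReal.ofReal (9 ^ (p - 1)) * (12 * δ' ^ p) := E_le hp hdm hem hdδ heδ
    _ = K * δ' ^ p := by rw [hK, mul_assoc]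
    _ ≤ δ := hδ'

theorem triangular_approximable {p : ℝ} (hp : 1 ≤ p) {f : R3 → R3} {Df : R3 → Fin 3 → Fin 3 → ℝ}
    (hf : IsHomeoOn cube cube f) (hW : IsW1p p cube f Df) (htri : IsIncrTriangularOn cube f) :
    DiffeoApproximable p cube cube f Df := by
  have h : ∀ j : ℕ, ∃ F : R3 → R3, IsDiffeoOn cube cube F ∧ IsW1p p cube F (jac F) ∧
      ∫⁻ x in cube, ENNReal.ofReal (eucl (F x - f x) ^ p + frob (jac F x - Df x) ^ p)
        ≤ ((j : ℝ≥0∞))⁻¹ := fun j =>
    exists_approx hp hf hW htri (by simp)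
  choose F hF1 hF2 hF3 using h
  refine ⟨F, hF1, hF2, ?_⟩
  exact tendsto_of_tendsto_of_tendsto_of_le_of_le tendsto_const_nhds
    ENNReal.tendsto_inv_nat_nhds_zero (fun _ => zero_le) hF3

end Vale.Agent.P073
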