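import Vale.Agent.P073.Kernel

namespace Vale.Agent.P073

open MeasureTheory Set Filter Topology
open scoped ENNReal ContDiff

/-- the local radius -/
def rr (κ a : ℝ) : ℝ := κ * (a * (1 - a))

/-- the one-dimensional kernel -/
noncomputable def k1 (κ a b : ℝ) : ℝ := phi ((b - a) / rr κ a) / rr κ a

lemma rr_pos {κ a : ℝ} (hκ : 0 < κ) (h0 : 0 < a) (h1 : a < 1) : 0 < rr κ a := by
  unfold rr
  have : 0 < 1 - a := by linarith
  positivity

lemma rr_lt_left {κ a : ℝ} (hκ0 : 0 < κ) (hκ : κ ≤ 1/2) (h0 : 0 < a) (h1 : a < 1) : rr κ a < a := by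
  unfold rr
  have h2 : 0 < 1 - a := by linarith
  have h3 : κ * (1 - a) < 1 := by nlinarith
  calc κ * (a * (1 - a)) = a * (κ * (1 - a)) := by ring
    _ < a * 1 := by gcongr
    _ = a := by ring

lemma rr_lt_right {κ a : ℝ} (hκ0 : 0 < κ) (hκ : κ ≤ 1/2) (h0 : 0 < a) (h1 : a < 1) :
    rr κ a < 1 - a := by
  unfold rr
  have h2 : 0 < 1 - a := by linarith
  have h3 : κ * a < 1 := by nlinarith
  calc κ * (a * (1 - a)) = (1 - a) * (κ * a) := by ring
    _ < (1 - a) * 1 := by gcongr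
    _ = 1 - a := by ring

lemma rr_hasDerivAt (κ a : ℝ) : HasDerivAt (rr κ) (κ * (1 - 2 * a)) a := by
  unfold rr
  have h1 : HasDerivAt (fun t : ℝ => t * (1 - t)) (1 * (1 - a) + a * (0 - 1)) a :=
    (hasDerivAt_id a).mul ((hasDerivAt_const a (1:ℝ)).sub (hasDerivAt_id a))
  refine (h1.const_mul κ).congr_deriv ?_
  ring

lemma phi_hasDerivAt (σ : ℝ) : HasDerivAt phi (deriv phi σ) σ :=
  (phi_contDiff.differentiable (by simp) σ).hasDerivAt

lemma k1_hasDerivAt_left {κ a : ℝ} (b : ℝ) (hr : rr κ a ≠ 0) :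
    HasDerivAt (fun a' => k1 κ a' b)
      (-((κ * (1 - 2 * a)) * phi ((b - a) / rr κ a)
          + (1 + (κ * (1 - 2 * a)) * ((b - a) / rr κ a)) * deriv phi ((b - a) / rr κ a))
        / (rr κ a) ^ 2) a := by
  unfold k1
  have h1 : HasDerivAt (fun a' : ℝ => b - a') (0 - 1) a :=
    (hasDerivAt_const a b).sub (hasDerivAt_id a)
  have h2 := h1.div (rr_hasDerivAt κ a) hr
  have h3 := (phi_hasDerivAt ((b - a) / rr κ a)).comp a h2
  have h4 := h3.div (rr_hasDerivAt κ a) hr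
  refine h4.congr_deriv ?_
  simp only [Function.comp_apply, Pi.div_apply]
  generalize phi ((b - a) / rr κ a) = P
  generalize deriv phi ((b - a) / rr κ a) = P'
  field_simp
  ring

lemma k1_hasDerivAt_right {κ a : ℝ} (b : ℝ) (hr : rr κ a ≠ 0) :
    HasDerivAt (fun b' => (1 + (κ * (1 - 2 * a)) * ((b' - a) / rr κ a)) * k1 κ a b')
      (((κ * (1 - 2 * a)) * phi ((b - a) / rr κ a)
          + (1 + (κ * (1 - 2 * a)) * ((b - a) / rr κ a)) * deriv phi ((b - a) / rr κ a))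
        / (rr κ a) ^ 2) b := by
  unfold k1
  have h1 : HasDerivAt (fun b' : ℝ => (b' - a) / rr κ a) ((1 - 0) / rr κ a) b :=
    ((hasDerivAt_id b).sub (hasDerivAt_const b a)).div_const _
  have h3 := ((phi_hasDerivAt ((b - a) / rr κ a)).comp b h1).div_const (rr κ a)
  have h4 := ((h1.const_mul (κ * (1 - 2 * a))).const_add 1).mul h3
  refine h4.congr_deriv ?_
  simp only [Function.comp_apply]
  generalize phi ((b - a) / rr κ a) = P
  generalize deriv phi ((b - a) / rr κ a) = P'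
  field_simp
  ring

lemma k1_eq_zero {κ a b : ℝ} (hr : 0 < rr κ a) (h : rr κ a ≤ |b - a|) : k1 κ a b = 0 := by
  unfold k1
  rw [phi_eq_zero, zero_div]
  rw [abs_div, abs_of_pos hr, le_div_iff₀ hr]
  linarith

end Vale.Agent.P073
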