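import Vale.Agent.P073.Defs

namespace Vale.Agent.P073

open MeasureTheory Set Filter Topology
open scoped ENNReal ContDiff

/-- a fixed smooth bump on the line -/
noncomputable def bump0 : ContDiffBump (0:ℝ) := ⟨1/2, 1, by norm_num, by norm_num⟩

/-- a smooth probability density on the line supported in `[-1,1]` -/
noncomputable def phi : ℝ → ℝ := bump0.normed volume

lemma phi_contDiff : ContDiff ℝ ∞ phi := bump0.contDiff_normed
lemma phi_continuous : Continuous phi := phi_contDiff.continuous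
lemma phi_nonneg (s : ℝ) : 0 ≤ phi s := bump0.nonneg_normed s
lemma phi_integral : ∫ s, phi s = 1 := bump0.integral_normed
lemma phi_eq_zero {s : ℝ} (h : 1 ≤ |s|) : phi s = 0 := by
  have h1 : Function.support phi = Metric.ball 0 1 := bump0.support_normed_eq
  by_contra hne
  have : s ∈ Function.support phi := hne
  rw [h1] at this
  simp at this
  linarith

/-- product density on `R3` -/
noncomputable def Phi (s : R3) : ℝ := ∏ i, phi (s i)

lemma Phi_contDiff : ContDiff ℝ ∞ Phi := by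
  unfold Phi
  apply contDiff_prod
  intro i _
  exact phi_contDiff.comp (contDiff_apply ℝ ℝ i)

lemma Phi_continuous : Continuous Phi := Phi_contDiff.continuous
lemma Phi_nonneg (s : R3) : 0 ≤ Phi s := Finset.prod_nonneg fun i _ => phi_nonneg _
lemma Phi_integral : ∫ s, Phi s = 1 := by
  unfold Phi
  rw [integral_fintype_prod_volume_eq_prod (fun _ => phi)]
  simp [phi_integral]
lemma Phi_eq_zero {s : R3} (h : ∃ i, 1 ≤ |s i|) : Phi s = 0 := by
  obtain ⟨i, hi⟩ := h
  exact Finset.prod_eq_zero (Finset.mem_univ i) (phi_eq_zero hi)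

lemma Phi_ne_zero_imp {s : R3} (h : Phi s ≠ 0) : ∀ i, |s i| < 1 := by
  intro i
  by_contra hi
  exact h (Phi_eq_zero ⟨i, not_lt.mp hi⟩)

lemma Phi_hasCompactSupport : HasCompactSupport Phi := by
  apply HasCompactSupport.intro (K := Icc (fun _ => -1) (fun _ => 1)) isCompact_Icc
  intro s hs
  apply Phi_eq_zero
  by_contra hcon
  push Not at hcon
  apply hs
  constructor
  · intro i
    exact (abs_lt.mp (hcon i)).1.le
  · intro i
    exact (abs_lt.mp (hcon i)).2.le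

lemma Phi_integrable : Integrable Phi := Phi_continuous.integrable_of_hasCompactSupport Phi_hasCompactSupport

/-- the one-dimensional reparametrisation `t ↦ t + κ s t (1 - t)` of `(0,1)` -/
def th (κ s t : ℝ) : ℝ := t + κ * s * (t * (1 - t))

/-- the split reparametrisation of the cube -/
def T (κ : ℝ) (s x : R3) : R3 := fun i => th κ (s i) (x i)

lemma ks_bound {κ s : ℝ} (hκ0 : 0 ≤ κ) (hκ : κ ≤ 1/2) (hs : |s| ≤ 1) : |κ * s| ≤ 1/2 := by
  rw [abs_mul, abs_of_nonneg hκ0]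
  calc κ * |s| ≤ (1/2) * 1 := by gcongr
    _ = 1/2 := by norm_num

lemma th_pos {κ s t : ℝ} (hκ0 : 0 ≤ κ) (hκ : κ ≤ 1/2) (hs : |s| ≤ 1) (h0 : 0 < t) (h1 : t < 1) :
    0 < th κ s t := by
  have h := abs_le.mp (ks_bound hκ0 hκ hs)
  have : th κ s t = t * (1 + κ * s * (1 - t)) := by unfold th; ring
  rw [this]
  apply mul_pos h0
  nlinarith [h.1, h.2]

lemma th_lt_one {κ s t : ℝ} (hκ0 : 0 ≤ κ) (hκ : κ ≤ 1/2) (hs : |s| ≤ 1) (h0 : 0 < t) (h1 : t < 1) :
    th κ s t < 1 := by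
  have h := abs_le.mp (ks_bound hκ0 hκ hs)
  have : 1 - th κ s t = (1 - t) * (1 - κ * s * t) := by unfold th; ring
  have h2 : 0 < (1 - t) * (1 - κ * s * t) := by
    apply mul_pos (by linarith)
    nlinarith [h.1, h.2]
  linarith

lemma th_lt_th {κ s t t' : ℝ} (hκ0 : 0 ≤ κ) (hκ : κ ≤ 1/2) (hs : |s| ≤ 1) (h0 : 0 < t)
    (h1 : t' < 1) (htt : t < t') : th κ s t < th κ s t' := by
  have h := abs_le.mp (ks_bound hκ0 hκ hs)
  have : th κ s t' - th κ s t = (t' - t) * (1 + κ * s * (1 - t - t')) := by unfold th; ring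
  have h2 : 0 < (t' - t) * (1 + κ * s * (1 - t - t')) := by
    apply mul_pos (by linarith)
    have h3 : -1 < 1 - t - t' := by linarith
    have h4 : 1 - t - t' < 1 := by linarith
    nlinarith [h.1, h.2]
  linarith

lemma th_sub_abs_le {κ s t : ℝ} (hκ0 : 0 ≤ κ) (hs : |s| ≤ 1) (h0 : 0 < t) (h1 : t < 1) :
    |th κ s t - t| ≤ κ := by
  have : th κ s t - t = κ * s * (t * (1 - t)) := by unfold th; ring
  rw [this, abs_mul, abs_mul, abs_of_nonneg hκ0]
  have h2 : |t * (1 - t)| ≤ 1 := by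
    rw [abs_of_nonneg (mul_nonneg h0.le (by linarith))]
    nlinarith
  calc κ * |s| * |t * (1 - t)| ≤ κ * 1 * 1 := by gcongr
    _ = κ := by ring

lemma th_hasDerivAt (κ s t : ℝ) : HasDerivAt (th κ s) (1 + κ * s * (1 - 2 * t)) t := by
  unfold th
  have h1 : HasDerivAt (fun t : ℝ => t * (1 - t)) (1 * (1 - t) + t * (0 - 1)) t :=
    (hasDerivAt_id t).mul ((hasDerivAt_const t (1:ℝ)).sub (hasDerivAt_id t))
  have h2 := (hasDerivAt_id t).add (h1.const_mul (κ * s))
  refine h2.congr_deriv ?_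
  ring

lemma th_deriv_ge {κ s t : ℝ} (hκ0 : 0 ≤ κ) (hκ : κ ≤ 1/2) (hs : |s| ≤ 1) (h0 : 0 < t) (h1 : t < 1) :
    1/2 ≤ 1 + κ * s * (1 - 2 * t) := by
  have h := abs_le.mp (ks_bound hκ0 hκ hs)
  have h3 : -1 < 1 - 2 * t := by linarith
  have h4 : 1 - 2 * t < 1 := by linarith
  nlinarith [h.1, h.2]

lemma T_mem_cube {κ : ℝ} {s x : R3} (hκ0 : 0 ≤ κ) (hκ : κ ≤ 1/2) (hs : ∀ i, |s i| ≤ 1)
    (hx : x ∈ cube) : T κ s x ∈ cube := fun i =>
  ⟨th_pos hκ0 hκ (hs i) (hx i).1 (hx i).2, th_lt_one hκ0 hκ (hs i) (hx i).1 (hx i).2⟩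

lemma T_injOn {κ : ℝ} {s : R3} (hκ0 : 0 ≤ κ) (hκ : κ ≤ 1/2) (hs : ∀ i, |s i| ≤ 1) :
    InjOn (T κ s) cube := by
  intro x hx y hy hxy
  funext i
  have h : th κ (s i) (x i) = th κ (s i) (y i) := congrFun hxy i
  rcases lt_trichotomy (x i) (y i) with hlt | heq | hgt
  · exact absurd h (th_lt_th hκ0 hκ (hs i) (hx i).1 (hy i).2 hlt).ne
  · exact heq
  · exact absurd h.symm (th_lt_th hκ0 hκ (hs i) (hy i).1 (hx i).2 hgt).ne

/-- diagonal continuous linear map -/
noncomputable def diagL (d : R3) : R3 →L[ℝ] R3 :=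
  ContinuousLinearMap.pi fun i => d i • (ContinuousLinearMap.proj i : R3 →L[ℝ] ℝ)

lemma diagL_apply (d v : R3) (i : Fin 3) : diagL d v i = d i * v i := by
  simp [diagL]

lemma diagL_det (d : R3) : (diagL d).det = ∏ i, d i := by
  have h := LinearMap.det_pi (R := ℝ) (M := ℝ) (ι := Fin 3) (fun i => d i • LinearMap.id)
  have h2 : ((diagL d : R3 →L[ℝ] R3) : R3 →ₗ[ℝ] R3)
      = LinearMap.pi fun i => (d i • LinearMap.id) ∘ₗ LinearMap.proj i := by
    ext v i
    simp [diagL]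
  rw [ContinuousLinearMap.det, h2, h]
  simp

lemma T_hasFDerivAt (κ : ℝ) (s x : R3) :
    HasFDerivAt (T κ s) (diagL fun i => 1 + κ * s i * (1 - 2 * x i)) x := by
  rw [hasFDerivAt_pi']
  intro i
  have h1 : HasFDerivAt (fun y : R3 => y i) (ContinuousLinearMap.proj i : R3 →L[ℝ] ℝ) x :=
    (ContinuousLinearMap.proj i : R3 →L[ℝ] ℝ).hasFDerivAt
  have h2 := (th_hasDerivAt κ (s i) (x i)).comp_hasFDerivAt x h1
  have h3 : ((ContinuousLinearMap.proj i : R3 →L[ℝ] ℝ) ∘L diagL fun i => 1 + κ * s i * (1 - 2 * x i))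
      = (1 + κ * s i * (1 - 2 * x i)) • (ContinuousLinearMap.proj i : R3 →L[ℝ] ℝ) := by
    ext v
    simp [diagL]
  rw [h3]
  exact h2

lemma cube_isOpen : IsOpen cube := by
  have : cube = ⋂ i : Fin 3, {x : R3 | 0 < x i ∧ x i < 1} := by
    ext x; simp [cube]
  rw [this]
  apply isOpen_iInter_of_finite
  intro i
  exact (isOpen_lt continuous_const (continuous_apply i)).inter
    (isOpen_lt (continuous_apply i) continuous_const)

lemma cube_measurableSet : MeasurableSet cube := cube_isOpen.measurableSet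

lemma cube_eq_pi : cube = Set.pi univ fun _ : Fin 3 => Ioo (0:ℝ) 1 := by
  ext x; simp [cube, Set.mem_pi]

lemma cube_volume : volume cube = 1 := by
  rw [cube_eq_pi, Real.volume_pi_Ioo]
  simp

end Vale.Agent.P073
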