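import Vale.Agent.P073.Kernel

namespace Vale.Agent.P073

open MeasureTheory Set Filter Topology
open scoped ENNReal ContDiff

lemma T_continuous_uncurry (κ : ℝ) : Continuous (fun q : R3 × R3 => T κ q.2 q.1) := by
  unfold T th
  fun_prop

lemma T_continuous_left (κ : ℝ) (x : R3) : Continuous (fun s : R3 => T κ s x) := by
  unfold T th
  fun_prop

/-- the averaging operator (variable radius mollifier on the cube), with a multiplier -/
noncomputable def A (κ c : ℝ) (k : Fin 3) (w : R3 → ℝ) (x : R3) : ℝ :=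
  ∫ s, w (T κ s x) * (1 + c * (κ * s k * (1 - 2 * x k))) * Phi s

/-- the density as an extended nonnegative real -/
noncomputable def PhiE (s : R3) : ℝ≥0∞ := ENNReal.ofReal (Phi s)

lemma PhiE_measurable : Measurable PhiE := Phi_continuous.measurable.ennreal_ofReal

lemma lintegral_PhiE : ∫⁻ s, PhiE s = 1 := by
  unfold PhiE
  rw [← ofReal_integral_eq_lintegral_ofReal Phi_integrable (ae_of_all _ Phi_nonneg), Phi_integral]
  simp

lemma PhiE_ne_zero_imp {s : R3} (h : PhiE s ≠ 0) : ∀ i, |s i| ≤ 1 := by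
  intro i
  have : Phi s ≠ 0 := by
    intro h0
    apply h
    simp [PhiE, h0]
  exact (Phi_ne_zero_imp this i).le

lemma mult_sub_one_abs_le {κ c t s : ℝ} (hκ0 : 0 ≤ κ) (hc0 : 0 ≤ c) (hc1 : c ≤ 1)
    (hs : |s| ≤ 1) (h0 : 0 < t) (h1 : t < 1) : |(1 + c * (κ * s * (1 - 2 * t))) - 1| ≤ κ := by
  have : (1 + c * (κ * s * (1 - 2 * t))) - 1 = c * (κ * s * (1 - 2 * t)) := by ring
  rw [this, abs_mul, abs_mul, abs_mul, abs_of_nonneg hκ0, abs_of_nonneg hc0]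
  have h2 : |1 - 2 * t| ≤ 1 := by
    rw [abs_le]; constructor <;> linarith
  calc c * (κ * |s| * |1 - 2 * t|) ≤ 1 * (κ * 1 * 1) := by gcongr
    _ = κ := by ring

lemma mult_abs_le {κ c t s : ℝ} (hκ0 : 0 ≤ κ) (hκ : κ ≤ 1/2) (hc0 : 0 ≤ c) (hc1 : c ≤ 1)
    (hs : |s| ≤ 1) (h0 : 0 < t) (h1 : t < 1) : |1 + c * (κ * s * (1 - 2 * t))| ≤ 2 := by
  have h := abs_le.mp (mult_sub_one_abs_le hκ0 hc0 hc1 hs h0 h1)
  rw [abs_le]
  constructor <;> linarith [h.1, h.2]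

lemma lintegral_comp_T_le {κ : ℝ} {s : R3} (hκ0 : 0 ≤ κ) (hκ : κ ≤ 1/2) (hs : ∀ i, |s i| ≤ 1)
    (G : R3 → ℝ≥0∞) : ∫⁻ x in cube, G (T κ s x) ≤ 8 * ∫⁻ x in cube, G x := by
  have h := lintegral_image_eq_lintegral_abs_det_fderiv_mul volume cube_measurableSet
    (fun x _ => (T_hasFDerivAt κ s x).hasFDerivWithinAt) (T_injOn hκ0 hκ hs) G
  have h1 : ∫⁻ x in T κ s '' cube, G x ≤ ∫⁻ x in cube, G x :=
    lintegral_mono_set (image_subset_iff.mpr fun x hx => T_mem_cube hκ0 hκ hs hx)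
  calc ∫⁻ x in cube, G (T κ s x)
      ≤ ∫⁻ x in cube, 8 * (ENNReal.ofReal |(diagL fun i => 1 + κ * s i * (1 - 2 * x i)).det|
          * G (T κ s x)) := by
        apply setLIntegral_mono' cube_measurableSet
        intro x hx
        have hd : (1/8 : ℝ) ≤ |(diagL fun i => 1 + κ * s i * (1 - 2 * x i)).det| := by
          rw [diagL_det, Fin.prod_univ_three]
          have h0 := th_deriv_ge hκ0 hκ (hs 0) (hx 0).1 (hx 0).2
          have h1 := th_deriv_ge hκ0 hκ (hs 1) (hx 1).1 (hx 1).2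
          have h2 := th_deriv_ge hκ0 hκ (hs 2) (hx 2).1 (hx 2).2
          have h3 : (1/2:ℝ) * (1/2) ≤ (1 + κ * s 0 * (1 - 2 * x 0)) * (1 + κ * s 1 * (1 - 2 * x 1)) :=
            mul_le_mul h0 h1 (by norm_num) (by linarith)
          have h4 : (1/2:ℝ) * (1/2) * (1/2) ≤ (1 + κ * s 0 * (1 - 2 * x 0)) * (1 + κ * s 1 * (1 - 2 * x 1))
              * (1 + κ * s 2 * (1 - 2 * x 2)) :=
            mul_le_mul h3 h2 (by norm_num) (by nlinarith)
          rw [abs_of_nonneg (by linarith)]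
          linarith
        have hd' : (1:ℝ≥0∞) ≤ 8 * ENNReal.ofReal |(diagL fun i => 1 + κ * s i * (1 - 2 * x i)).det| := by
          have : (8:ℝ≥0∞) = ENNReal.ofReal 8 := by norm_num
          rw [this, ← ENNReal.ofReal_mul (by norm_num)]
          rw [← ENNReal.ofReal_one]
          apply ENNReal.ofReal_le_ofReal
          linarith
        calc G (T κ s x) = 1 * G (T κ s x) := by rw [one_mul]
          _ ≤ (8 * ENNReal.ofReal |(diagL fun i => 1 + κ * s i * (1 - 2 * x i)).det|) * G (T κ s x) := by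
            gcongr
          _ = _ := by rw [mul_assoc]
    _ = 8 * ∫⁻ x in cube, (ENNReal.ofReal |(diagL fun i => 1 + κ * s i * (1 - 2 * x i)).det|
          * G (T κ s x)) := by
        rw [lintegral_const_mul' _ _ (by norm_num)]
    _ = 8 * ∫⁻ x in T κ s '' cube, G x := by rw [h]
    _ ≤ 8 * ∫⁻ x in cube, G x := by gcongr

lemma jensen_prob {α : Type*} [MeasurableSpace α] (ν : Measure α) [IsProbabilityMeasure ν]
    (a : α → ℝ≥0∞) (ha : Measurable a) (p : ℝ) (hp : 1 ≤ p) :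
    (∫⁻ s, a s ∂ν) ^ p ≤ ∫⁻ s, a s ^ p ∂ν := by
  have h := eLpNorm_le_eLpNorm_of_exponent_le (μ := ν) (f := a) (p := 1) (q := ENNReal.ofReal p)
    (by simpa using hp) ha.aestronglyMeasurable
  rw [eLpNorm_one_eq_lintegral_enorm,
    eLpNorm_eq_lintegral_rpow_enorm_toReal (by simp; linarith) (by simp)] at h
  simp only [enorm_eq_self] at h
  rw [ENNReal.toReal_ofReal (by linarith)] at h
  calc (∫⁻ s, a s ∂ν) ^ p ≤ ((∫⁻ s, a s ^ p ∂ν) ^ (1 / p)) ^ p := by gcongr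
    _ = _ := by
      rw [← ENNReal.rpow_mul]
      rw [one_div_mul_cancel (by linarith)]
      simp

lemma jensen_Phi {p : ℝ} (hp : 1 ≤ p) (a : R3 → ℝ≥0∞) (ha : Measurable a) :
    (∫⁻ s, a s * PhiE s) ^ p ≤ ∫⁻ s, a s ^ p * PhiE s := by
  have hprob : IsProbabilityMeasure (volume.withDensity PhiE) := by
    constructor
    rw [withDensity_apply _ MeasurableSet.univ]
    simpa using lintegral_PhiE
  have h := jensen_prob (volume.withDensity PhiE) a ha p hp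
  rw [lintegral_withDensity_eq_lintegral_mul _ PhiE_measurable ha,
    lintegral_withDensity_eq_lintegral_mul _ PhiE_measurable (ha.pow_const p)] at h
  simpa [mul_comm] using h

/-- the majorant of the averaging operator -/
noncomputable def B (κ : ℝ) (w : R3 → ℝ) (x : R3) : ℝ≥0∞ := ∫⁻ s, ‖w (T κ s x)‖ₑ * PhiE s

lemma measurable_comp_T {κ : ℝ} {w : R3 → ℝ} (hw : Measurable w) :
    Measurable (fun q : R3 × R3 => w (T κ q.2 q.1)) :=
  hw.comp (T_continuous_uncurry κ).measurable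

lemma B_measurable {κ : ℝ} {w : R3 → ℝ} (hw : Measurable w) : Measurable (B κ w) := by
  unfold B
  apply Measurable.lintegral_prod_right' (f := fun q : R3 × R3 => ‖w (T κ q.2 q.1)‖ₑ * PhiE q.2)
  exact (measurable_comp_T hw).enorm.mul (PhiE_measurable.comp measurable_snd)

lemma lintegral_B_le {κ p : ℝ} (hκ0 : 0 ≤ κ) (hκ : κ ≤ 1/2) (hp : 1 ≤ p) {w : R3 → ℝ}
    (hw : Measurable w) :
    ∫⁻ x in cube, (B κ w x) ^ p ≤ 8 * ∫⁻ x in cube, ‖w x‖ₑ ^ p := by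
  calc ∫⁻ x in cube, (B κ w x) ^ p
      ≤ ∫⁻ x in cube, ∫⁻ s, ‖w (T κ s x)‖ₑ ^ p * PhiE s := by
        apply lintegral_mono
        intro x
        exact jensen_Phi hp _ ((hw.comp (T_continuous_left κ x).measurable).enorm)
    _ = ∫⁻ s, ∫⁻ x in cube, ‖w (T κ s x)‖ₑ ^ p * PhiE s := by
        apply lintegral_lintegral_swap
        apply Measurable.aemeasurable
        exact ((measurable_comp_T hw).enorm.pow_const p).mul (PhiE_measurable.comp measurable_snd)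
    _ ≤ ∫⁻ s, (8 * ∫⁻ x in cube, ‖w x‖ₑ ^ p) * PhiE s := by
        apply lintegral_mono
        intro s
        by_cases hs : PhiE s = 0
        · simp [hs]
        · have hfin : PhiE s ≠ ⊤ := by simp [PhiE]
          show ∫⁻ x in cube, ‖w (T κ s x)‖ₑ ^ p * PhiE s ≤ _
          rw [lintegral_mul_const' _ _ hfin]
          exact mul_le_mul_left
            (lintegral_comp_T_le hκ0 hκ (PhiE_ne_zero_imp hs) (fun y => ‖w y‖ₑ ^ p)) _
    _ = 8 * ∫⁻ x in cube, ‖w x‖ₑ ^ p := by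
        rw [lintegral_const_mul _ PhiE_measurable, lintegral_PhiE, mul_one]

lemma enorm_integrand_le {κ c : ℝ} (hκ0 : 0 ≤ κ) (hκ : κ ≤ 1/2) (hc0 : 0 ≤ c) (hc1 : c ≤ 1)
    (k : Fin 3) (w : R3 → ℝ) {x : R3} (hx : x ∈ cube) (s : R3) :
    ‖w (T κ s x) * (1 + c * (κ * s k * (1 - 2 * x k))) * Phi s‖ₑ
      ≤ 2 * (‖w (T κ s x)‖ₑ * PhiE s) := by
  by_cases hs : PhiE s = 0
  · have : Phi s = 0 := by
      have h1 : Phi s ≤ 0 := by simpa [PhiE] using hs
      exact le_antisymm h1 (Phi_nonneg s)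
    simp [this]
  · have hm := mult_abs_le hκ0 hκ hc0 hc1 (PhiE_ne_zero_imp hs k) (hx k).1 (hx k).2
    rw [enorm_mul, enorm_mul]
    have h1 : ‖Phi s‖ₑ = PhiE s := by
      rw [PhiE, Real.enorm_eq_ofReal (Phi_nonneg s)]
    have h2 : ‖1 + c * (κ * s k * (1 - 2 * x k))‖ₑ ≤ 2 := by
      rw [Real.enorm_eq_ofReal_abs]
      have : (2:ℝ≥0∞) = ENNReal.ofReal 2 := by norm_num
      rw [this]
      exact ENNReal.ofReal_le_ofReal hm
    rw [h1]
    calc ‖w (T κ s x)‖ₑ * ‖1 + c * (κ * s k * (1 - 2 * x k))‖ₑ * PhiE s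
        ≤ ‖w (T κ s x)‖ₑ * 2 * PhiE s := by gcongr
      _ = _ := by ring

lemma enorm_A_le {κ c : ℝ} (hκ0 : 0 ≤ κ) (hκ : κ ≤ 1/2) (hc0 : 0 ≤ c) (hc1 : c ≤ 1)
    (k : Fin 3) (w : R3 → ℝ) {x : R3} (hx : x ∈ cube) :
    ‖A κ c k w x‖ₑ ≤ 2 * B κ w x := by
  unfold A B
  calc ‖∫ s, w (T κ s x) * (1 + c * (κ * s k * (1 - 2 * x k))) * Phi s‖ₑ
      ≤ ∫⁻ s, ‖w (T κ s x) * (1 + c * (κ * s k * (1 - 2 * x k))) * Phi s‖ₑ :=
        enorm_integral_le_lintegral_enorm _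
    _ ≤ ∫⁻ s, 2 * (‖w (T κ s x)‖ₑ * PhiE s) :=
        lintegral_mono fun s => enorm_integrand_le hκ0 hκ hc0 hc1 k w hx s
    _ = _ := by rw [lintegral_const_mul' _ _ (by norm_num)]

lemma lintegral_A_le {κ c p : ℝ} (hκ0 : 0 ≤ κ) (hκ : κ ≤ 1/2) (hc0 : 0 ≤ c) (hc1 : c ≤ 1)
    (hp : 1 ≤ p) (k : Fin 3) {w : R3 → ℝ} (hw : Measurable w) :
    ∫⁻ x in cube, ‖A κ c k w x‖ₑ ^ p ≤ (2 ^ p * 8) * ∫⁻ x in cube, ‖w x‖ₑ ^ p := by
  calc ∫⁻ x in cube, ‖A κ c k w x‖ₑ ^ p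
      ≤ ∫⁻ x in cube, 2 ^ p * (B κ w x) ^ p := by
        apply setLIntegral_mono' cube_measurableSet
        intro x hx
        rw [← ENNReal.mul_rpow_of_nonneg _ _ (by linarith)]
        exact ENNReal.rpow_le_rpow (enorm_A_le hκ0 hκ hc0 hc1 k w hx) (by linarith)
    _ = 2 ^ p * ∫⁻ x in cube, (B κ w x) ^ p := by
        rw [lintegral_const_mul' _ _ (by simp)]
    _ ≤ 2 ^ p * (8 * ∫⁻ x in cube, ‖w x‖ₑ ^ p) := by
        gcongr
        exact lintegral_B_le hκ0 hκ hp hw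
    _ = _ := by rw [mul_assoc]

end Vale.Agent.P073
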