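import Vale.Agent.P073.LpConv

namespace Vale.Agent.P073

open MeasureTheory Set Filter Topology
open scoped ENNReal ContDiff

lemma integrand_measurable {κ c : ℝ} {k : Fin 3} {w : R3 → ℝ} (hw : Measurable w) :
    Measurable (fun q : R3 × R3 =>
      w (T κ q.2 q.1) * (1 + c * (κ * q.2 k * (1 - 2 * q.1 k))) * Phi q.2) := by
  apply Measurable.mul
  · apply Measurable.mul (measurable_comp_T hw)
    apply Continuous.measurable
    fun_prop
  · exact Phi_continuous.measurable.comp measurable_snd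

lemma A_stronglyMeasurable {κ c : ℝ} {k : Fin 3} {w : R3 → ℝ} (hw : Measurable w) :
    StronglyMeasurable (A κ c k w) := by
  unfold A
  exact StronglyMeasurable.integral_prod_right'
    (f := fun q : R3 × R3 => w (T κ q.2 q.1) * (1 + c * (κ * q.2 k * (1 - 2 * q.1 k))) * Phi q.2)
    (integrand_measurable hw).stronglyMeasurable

lemma eLpNorm_eq_lint {p : ℝ} (hp : 1 ≤ p) (w : R3 → ℝ) :
    eLpNorm w (ENNReal.ofReal p) (volume.restrict cube) = (∫⁻ x in cube, ‖w x‖ₑ ^ p) ^ (1 / p) := by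
  rw [eLpNorm_eq_lintegral_rpow_enorm_toReal (by simp; linarith) (by simp),
    ENNReal.toReal_ofReal (by linarith)]

/-- the operator norm bound constant -/
noncomputable def Cp (p : ℝ) : ℝ≥0∞ := ((2:ℝ≥0∞) ^ p * 8) ^ (1 / p)

lemma Cp_ne_top {p : ℝ} (hp : 1 ≤ p) : Cp p ≠ ⊤ := by
  unfold Cp
  apply ENNReal.rpow_ne_top_of_nonneg (by positivity)
  apply ENNReal.mul_ne_top _ (by norm_num)
  exact ENNReal.rpow_ne_top_of_nonneg (by linarith) (by norm_num)

lemma eLpNorm_A_le {κ c p : ℝ} (hκ0 : 0 ≤ κ) (hκ : κ ≤ 1/2) (hc0 : 0 ≤ c) (hc1 : c ≤ 1)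
    (hp : 1 ≤ p) (k : Fin 3) {w : R3 → ℝ} (hw : Measurable w) :
    eLpNorm (A κ c k w) (ENNReal.ofReal p) (volume.restrict cube)
      ≤ Cp p * eLpNorm w (ENNReal.ofReal p) (volume.restrict cube) := by
  rw [eLpNorm_eq_lint hp, eLpNorm_eq_lint hp, Cp, ← ENNReal.mul_rpow_of_nonneg _ _ (by positivity)]
  exact ENNReal.rpow_le_rpow (lintegral_A_le hκ0 hκ hc0 hc1 hp k hw) (by positivity)

lemma lintegral_rpow_lt_top {p : ℝ} (hp : 1 ≤ p) {w : R3 → ℝ}
    (hwp : MemLp w (ENNReal.ofReal p) (volume.restrict cube)) :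
    ∫⁻ x in cube, ‖w x‖ₑ ^ p < ⊤ := by
  have h := hwp.2
  rw [eLpNorm_eq_lint hp] at h
  by_contra hcon
  have : ∫⁻ x in cube, ‖w x‖ₑ ^ p = ⊤ := not_lt_top_iff.mp hcon
  rw [this, ENNReal.top_rpow_of_pos (by positivity)] at h
  exact lt_irrefl _ h

lemma ae_integrable_integrand {κ c p : ℝ} (hκ0 : 0 ≤ κ) (hκ : κ ≤ 1/2) (hc0 : 0 ≤ c) (hc1 : c ≤ 1)
    (hp : 1 ≤ p) (k : Fin 3) {w : R3 → ℝ} (hw : Measurable w)
    (hwp : MemLp w (ENNReal.ofReal p) (volume.restrict cube)) :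
    ∀ᵐ x ∂(volume.restrict cube),
      Integrable (fun s => w (T κ s x) * (1 + c * (κ * s k * (1 - 2 * x k))) * Phi s) := by
  have hfin : ∫⁻ x in cube, (B κ w x) ^ p < ⊤ := by
    refine lt_of_le_of_lt (lintegral_B_le hκ0 hκ hp hw) ?_
    exact ENNReal.mul_lt_top (by norm_num) (lintegral_rpow_lt_top hp hwp)
  have h1 := ae_lt_top ((B_measurable (κ := κ) hw).pow_const p) hfin.ne
  filter_upwards [h1, ae_restrict_mem cube_measurableSet] with x hx hxc
  constructor
  · apply Measurable.aestronglyMeasurable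
    exact (integrand_measurable (κ := κ) (c := c) (k := k) hw).comp (measurable_prodMk_left (x := x))
  · have hB : B κ w x < ⊤ := by
      by_contra hcon
      have : B κ w x = ⊤ := not_lt_top_iff.mp hcon
      rw [this, ENNReal.top_rpow_of_pos (by linarith)] at hx
      exact lt_irrefl _ hx
    calc ∫⁻ s, ‖w (T κ s x) * (1 + c * (κ * s k * (1 - 2 * x k))) * Phi s‖ₑ
        ≤ ∫⁻ s, 2 * (‖w (T κ s x)‖ₑ * PhiE s) :=
          lintegral_mono fun s => enorm_integrand_le hκ0 hκ hc0 hc1 k w hxc s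
      _ = 2 * B κ w x := by rw [lintegral_const_mul' _ _ (by norm_num)]; rfl
      _ < ⊤ := ENNReal.mul_lt_top (by norm_num) hB

lemma integrable_integrand_of_continuous {κ c : ℝ} (k : Fin 3) {g : R3 → ℝ} (hg : Continuous g)
    (x : R3) : Integrable (fun s => g (T κ s x) * (1 + c * (κ * s k * (1 - 2 * x k))) * Phi s) := by
  apply Continuous.integrable_of_hasCompactSupport
  · have := T_continuous_left κ x
    have h2 := Phi_continuous
    fun_prop
  · exact Phi_hasCompactSupport.mul_left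

lemma dist_T_le {κ : ℝ} {s x : R3} (hκ0 : 0 ≤ κ) (hs : ∀ i, |s i| ≤ 1) (hx : x ∈ cube) :
    dist (T κ s x) x ≤ κ := by
  rw [dist_pi_le_iff hκ0]
  intro i
  rw [Real.dist_eq]
  exact th_sub_abs_le hκ0 (hs i) (hx i).1 (hx i).2

lemma A_sub_abs_le {κ c ε M : ℝ} (hκ0 : 0 ≤ κ) (hκ : κ ≤ 1/2) (hc0 : 0 ≤ c) (hc1 : c ≤ 1)
    (k : Fin 3) {g : R3 → ℝ} (hg : Continuous g) (hM : ∀ y, |g y| ≤ M)
    (hε : ∀ y z, dist y z ≤ κ → |g y - g z| ≤ ε) {x : R3} (hx : x ∈ cube) :
    |A κ c k g x - g x| ≤ 2 * ε + M * κ := by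
  have hε0 : 0 ≤ ε := le_trans (abs_nonneg _) (hε x x (by simpa using hκ0))
  have hM0 : 0 ≤ M := le_trans (abs_nonneg _) (hM x)
  have h1 : g x = ∫ s, g x * Phi s := by
    rw [integral_const_mul, Phi_integral, mul_one]
  have h2 : A κ c k g x - g x
      = ∫ s, (g (T κ s x) * (1 + c * (κ * s k * (1 - 2 * x k))) * Phi s - g x * Phi s) := by
    rw [integral_sub (integrable_integrand_of_continuous k hg x) (Phi_integrable.const_mul _), ← h1]
    rfl
  rw [h2, ← Real.norm_eq_abs]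
  have h3 : ∫ s, (2 * ε + M * κ) * Phi s = 2 * ε + M * κ := by
    rw [integral_const_mul, Phi_integral, mul_one]
  rw [← h3]
  apply norm_integral_le_of_norm_le (Phi_integrable.const_mul _)
  apply ae_of_all
  intro s
  by_cases hs : Phi s = 0
  · simp [hs]
  · have hs' : ∀ i, |s i| ≤ 1 := fun i => (Phi_ne_zero_imp hs i).le
    have e1 : g (T κ s x) * (1 + c * (κ * s k * (1 - 2 * x k))) * Phi s - g x * Phi s
        = ((g (T κ s x) - g x) * (1 + c * (κ * s k * (1 - 2 * x k)))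
            + g x * ((1 + c * (κ * s k * (1 - 2 * x k))) - 1)) * Phi s := by ring
    rw [e1, norm_mul, Real.norm_eq_abs, Real.norm_eq_abs, abs_of_nonneg (Phi_nonneg s)]
    apply mul_le_mul_of_nonneg_right _ (Phi_nonneg s)
    calc |(g (T κ s x) - g x) * (1 + c * (κ * s k * (1 - 2 * x k)))
            + g x * ((1 + c * (κ * s k * (1 - 2 * x k))) - 1)|
        ≤ |(g (T κ s x) - g x) * (1 + c * (κ * s k * (1 - 2 * x k)))|
            + |g x * ((1 + c * (κ * s k * (1 - 2 * x k))) - 1)| := abs_add_le _ _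
      _ = |g (T κ s x) - g x| * |1 + c * (κ * s k * (1 - 2 * x k))|
            + |g x| * |(1 + c * (κ * s k * (1 - 2 * x k))) - 1| := by rw [abs_mul, abs_mul]
      _ ≤ ε * 2 + M * κ := by
          have a1 := hε _ _ (dist_T_le hκ0 hs' hx)
          have a2 := mult_abs_le hκ0 hκ hc0 hc1 (hs' k) (hx k).1 (hx k).2
          have a3 := mult_sub_one_abs_le hκ0 hc0 hc1 (hs' k) (hx k).1 (hx k).2
          gcongr
          exact hM x
      _ = 2 * ε + M * κ := by ring

end Vale.Agent.P073
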