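import Vale.Agent.P073.LpConv2

namespace Vale.Agent.P073

open MeasureTheory Set Filter Topology
open scoped ENNReal ContDiff

lemma exists_cont_approx {p : ℝ} {w : R3 → ℝ}
    (hwp : MemLp w (ENNReal.ofReal p) (volume.restrict cube)) {δ : ℝ≥0∞} (hδ : δ ≠ 0) :
    ∃ g : R3 → ℝ, HasCompactSupport g ∧ Continuous g ∧
      eLpNorm (fun x => w x - g x) (ENNReal.ofReal p) (volume.restrict cube) ≤ δ := by
  have h1 : MemLp (cube.indicator w) (ENNReal.ofReal p) volume :=
    (memLp_indicator_iff_restrict cube_measurableSet).mpr hwp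
  obtain ⟨g, hgc, hgle, hgcont, -⟩ := h1.exists_hasCompactSupport_eLpNorm_sub_le (by simp) hδ
  refine ⟨g, hgc, hgcont, ?_⟩
  calc eLpNorm (fun x => w x - g x) (ENNReal.ofReal p) (volume.restrict cube)
      = eLpNorm (cube.indicator w - g) (ENNReal.ofReal p) (volume.restrict cube) := by
        apply eLpNorm_congr_ae
        filter_upwards [ae_restrict_mem cube_measurableSet] with x hx
        simp [indicator_of_mem hx]
    _ ≤ eLpNorm (cube.indicator w - g) (ENNReal.ofReal p) volume :=
        eLpNorm_mono_measure _ Measure.restrict_le_self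
    _ ≤ δ := hgle

lemma eLpNorm_le_of_bound_cube {p C : ℝ} {h : R3 → ℝ} (hb : ∀ x ∈ cube, |h x| ≤ C) :
    eLpNorm h (ENNReal.ofReal p) (volume.restrict cube) ≤ ENNReal.ofReal C := by
  have h1 : ∀ᵐ x ∂(volume.restrict cube), ‖h x‖ ≤ C := by
    filter_upwards [ae_restrict_mem cube_measurableSet] with x hx
    exact hb x hx
  have h2 := eLpNorm_le_of_ae_bound (p := ENNReal.ofReal p) h1
  simpa [cube_volume] using h2

lemma exists_kappa_A {p : ℝ} (hp : 1 ≤ p) {c : ℝ} (hc0 : 0 ≤ c) (hc1 : c ≤ 1) (k : Fin 3)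
    {w : R3 → ℝ} (hw : Measurable w) (hwp : MemLp w (ENNReal.ofReal p) (volume.restrict cube))
    {ε : ℝ≥0∞} (hε : ε ≠ 0) :
    ∃ κ₀ : ℝ, 0 < κ₀ ∧ κ₀ ≤ 1/2 ∧ ∀ κ, 0 < κ → κ ≤ κ₀ →
      eLpNorm (fun x => A κ c k w x - w x) (ENNReal.ofReal p) (volume.restrict cube) ≤ ε := by
  have hp' : (1:ℝ≥0∞) ≤ ENNReal.ofReal p := by simpa using hp
  set D : ℝ≥0∞ := Cp p + 2 with hD
  have hD0 : D ≠ 0 := by simp [hD]
  have hDtop : D ≠ ⊤ := by simp [hD, Cp_ne_top hp]
  set δ : ℝ≥0∞ := ε / D with hδdef
  have hδ : δ ≠ 0 := by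
    rw [hδdef]
    exact (ENNReal.div_pos hε hDtop).ne'
  have hDδ : D * δ ≤ ε := by
    rw [hδdef]
    exact le_of_eq (ENNReal.mul_div_cancel hD0 hDtop)
  obtain ⟨g, hgc, hgcont, hgle⟩ := exists_cont_approx hwp hδ
  obtain ⟨M, hM⟩ := hgcont.bounded_above_of_compact_support hgc
  obtain ⟨r, hr0, hrpos, hrlt⟩ := ENNReal.lt_iff_exists_real_btwn.mp (pos_iff_ne_zero.mpr hδ)
  have hr : 0 < r := by simpa using hrpos
  have huc : UniformContinuous g := hgc.uniformContinuous_of_continuous hgcont
  obtain ⟨η, hη, hηg⟩ := Metric.uniformContinuous_iff.mp huc (r / 4) (by positivity)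
  have hM0 : 0 ≤ M := le_trans (norm_nonneg _) (hM 0)
  refine ⟨min (1/2) (min (η / 2) (r / (2 * (M + 1)))), by positivity, min_le_left _ _, ?_⟩
  intro κ hκ0 hκle
  have hκ : κ ≤ 1/2 := le_trans hκle (min_le_left _ _)
  have hκη : κ ≤ η / 2 := le_trans hκle (le_trans (min_le_right _ _) (min_le_left _ _))
  have hκr : κ ≤ r / (2 * (M + 1)) := le_trans hκle (le_trans (min_le_right _ _) (min_le_right _ _))
  have hgm : Measurable g := hgcont.measurable
  -- the three pieces
  have m1 : AEStronglyMeasurable (fun x => A κ c k w x - A κ c k g x) (volume.restrict cube) :=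
    ((A_stronglyMeasurable hw).sub (A_stronglyMeasurable hgm)).aestronglyMeasurable
  have m2 : AEStronglyMeasurable (fun x => A κ c k g x - g x) (volume.restrict cube) :=
    ((A_stronglyMeasurable hgm).sub hgm.stronglyMeasurable).aestronglyMeasurable
  have m3 : AEStronglyMeasurable (fun x => g x - w x) (volume.restrict cube) :=
    (hgm.sub hw).aestronglyMeasurable
  have e1 : eLpNorm (fun x => A κ c k w x - A κ c k g x) (ENNReal.ofReal p) (volume.restrict cube)
      ≤ Cp p * δ := by
    have hcongr : (fun x => A κ c k w x - A κ c k g x)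
        =ᵐ[volume.restrict cube] A κ c k (fun x => w x - g x) := by
      filter_upwards [ae_integrable_integrand hκ0.le hκ hc0 hc1 hp k hw hwp] with x hx
      unfold A
      rw [← integral_sub hx (integrable_integrand_of_continuous k hgcont x)]
      congr 1
      funext s
      ring
    rw [eLpNorm_congr_ae hcongr]
    calc eLpNorm (A κ c k (fun x => w x - g x)) (ENNReal.ofReal p) (volume.restrict cube)
        ≤ Cp p * eLpNorm (fun x => w x - g x) (ENNReal.ofReal p) (volume.restrict cube) :=
          eLpNorm_A_le hκ0.le hκ hc0 hc1 hp k (hw.sub hgm)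
      _ ≤ Cp p * δ := by gcongr
  have e2 : eLpNorm (fun x => A κ c k g x - g x) (ENNReal.ofReal p) (volume.restrict cube) ≤ δ := by
    refine le_trans (eLpNorm_le_of_bound_cube (C := r) ?_) hrlt.le
    intro x hx
    have hb := A_sub_abs_le (ε := r / 4) (M := M) hκ0.le hκ hc0 hc1 k hgcont
      (fun y => by simpa using hM y)
      (fun y z hyz => by
        have := hηg (a := y) (b := z) (lt_of_le_of_lt hyz (by linarith))
        rw [Real.dist_eq] at this
        exact this.le) hx
    have h3 : M * κ ≤ r / 2 := by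
      calc M * κ ≤ (M + 1) * (r / (2 * (M + 1))) := by gcongr; linarith
        _ = r / 2 := by field_simp
    linarith
  have e3 : eLpNorm (fun x => g x - w x) (ENNReal.ofReal p) (volume.restrict cube) ≤ δ := by
    have : eLpNorm (fun x => g x - w x) (ENNReal.ofReal p) (volume.restrict cube)
        = eLpNorm (fun x => w x - g x) (ENNReal.ofReal p) (volume.restrict cube) :=
      eLpNorm_sub_comm g w _ _
    rw [this]
    exact hgle
  have hsplit : (fun x => A κ c k w x - w x)
      = (fun x => A κ c k w x - A κ c k g x) + ((fun x => A κ c k g x - g x) + (fun x => g x - w x)) := by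
    funext x
    simp only [Pi.add_apply]
    ring
  rw [hsplit]
  calc eLpNorm ((fun x => A κ c k w x - A κ c k g x)
        + ((fun x => A κ c k g x - g x) + (fun x => g x - w x))) (ENNReal.ofReal p) (volume.restrict cube)
      ≤ eLpNorm (fun x => A κ c k w x - A κ c k g x) (ENNReal.ofReal p) (volume.restrict cube)
        + eLpNorm ((fun x => A κ c k g x - g x) + (fun x => g x - w x)) (ENNReal.ofReal p)
          (volume.restrict cube) := eLpNorm_add_le m1 (m2.add m3) hp'
    _ ≤ eLpNorm (fun x => A κ c k w x - A κ c k g x) (ENNReal.ofReal p) (volume.restrict cube)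
        + (eLpNorm (fun x => A κ c k g x - g x) (ENNReal.ofReal p) (volume.restrict cube)
          + eLpNorm (fun x => g x - w x) (ENNReal.ofReal p) (volume.restrict cube)) := by
        gcongr
        exact eLpNorm_add_le m2 m3 hp'
    _ ≤ Cp p * δ + (δ + δ) := by gcongr
    _ = D * δ := by rw [hD]; ring
    _ ≤ ε := hDδ

end Vale.Agent.P073
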