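import Vale.Agent.P073.Ker1
import Vale.Agent.P073.LpConv

namespace Vale.Agent.P073

open MeasureTheory Set Filter Topology
open scoped ENNReal ContDiff Convolution

/-- the three-dimensional kernel -/
noncomputable def Ker (κ : ℝ) (x t : R3) : ℝ := ∏ i, k1 κ (x i) (t i)

/-- the kernel in convolution form -/
noncomputable def gK (κ : ℝ) (p z : R3) : ℝ := ∏ i, k1 κ (p i) (p i - z i)

lemma integral_affine (x r : R3) (hr : ∀ i, 0 < r i) (G : R3 → ℝ) :
    ∫ s : R3, G (fun i => x i + r i * s i) = (∏ i, r i)⁻¹ * ∫ t, G t := by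
  have hder : ∀ s ∈ (univ : Set R3),
      HasFDerivWithinAt (fun s : R3 => fun i => x i + r i * s i) (diagL r) univ s := by
    intro s _
    apply HasFDerivAt.hasFDerivWithinAt
    rw [hasFDerivAt_pi']
    intro i
    have h1 : HasFDerivAt (fun y : R3 => y i) (ContinuousLinearMap.proj i : R3 →L[ℝ] ℝ) s :=
      (ContinuousLinearMap.proj i : R3 →L[ℝ] ℝ).hasFDerivAt
    have h2 := (h1.const_mul (r i)).const_add (x i)
    have h3 : ((ContinuousLinearMap.proj i : R3 →L[ℝ] ℝ) ∘L diagL r)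
        = r i • (ContinuousLinearMap.proj i : R3 →L[ℝ] ℝ) := by
      ext v
      simp [diagL]
    rw [h3]
    exact h2
  have hinj : InjOn (fun s : R3 => fun i => x i + r i * s i) univ := by
    intro s _ s' _ h
    funext i
    have := congrFun h i
    simp only [add_right_inj] at this
    exact mul_left_cancel₀ (hr i).ne' this
  have himg : (fun s : R3 => fun i => x i + r i * s i) '' univ = univ := by
    rw [image_univ]
    apply Function.Surjective.range_eq
    intro t
    refine ⟨fun i => (t i - x i) / r i, ?_⟩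
    funext i
    have := (hr i).ne'
    field_simp
    ring
  have h := integral_image_eq_integral_abs_det_fderiv_smul volume MeasurableSet.univ hder hinj G
  rw [himg] at h
  simp only [Measure.restrict_univ, diagL_det, smul_eq_mul] at h
  have hpos : 0 < ∏ i, r i := Finset.prod_pos fun i _ => hr i
  rw [abs_of_pos hpos, integral_const_mul] at h
  rw [h]
  field_simp

lemma T_eq_affine (κ : ℝ) (s x : R3) : T κ s x = fun i => x i + rr κ (x i) * s i := by
  funext i
  simp only [T, th, rr]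
  ring

lemma A_eq_kernel {κ c : ℝ} (hκ : 0 < κ) (k : Fin 3) (w : R3 → ℝ) {x : R3} (hx : x ∈ cube) :
    A κ c k w x = ∫ t, w t *
      ((1 + c * ((κ * (1 - 2 * x k)) * ((t k - x k) / rr κ (x k)))) * Ker κ x t) := by
  have hr : ∀ i, 0 < rr κ (x i) := fun i => rr_pos hκ (hx i).1 (hx i).2
  have h := integral_affine x (fun i => rr κ (x i)) hr
    (fun t => w t * (1 + c * (κ * ((t k - x k) / rr κ (x k)) * (1 - 2 * x k)))
      * Phi (fun i => (t i - x i) / rr κ (x i)))
  unfold A
  have e1 : (fun s => w (T κ s x) * (1 + c * (κ * s k * (1 - 2 * x k))) * Phi s)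
      = fun s : R3 => (fun t => w t * (1 + c * (κ * ((t k - x k) / rr κ (x k)) * (1 - 2 * x k)))
      * Phi (fun i => (t i - x i) / rr κ (x i))) (fun i => x i + rr κ (x i) * s i) := by
    funext s
    have e2 : ∀ i, (x i + rr κ (x i) * s i - x i) / rr κ (x i) = s i := by
      intro i
      have := (hr i).ne'
      field_simp
      ring
    simp only [e2, T_eq_affine]
  rw [e1, h, ← integral_const_mul]
  congr 1
  funext t
  have e3 : Ker κ x t = (∏ i, rr κ (x i))⁻¹ * Phi (fun i => (t i - x i) / rr κ (x i)) := by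
    unfold Ker k1 Phi
    rw [Finset.prod_div_distrib]
    field_simp
  rw [e3]
  ring

lemma gK_contDiffOn {κ : ℝ} (hκ : 0 < κ) :
    ContDiffOn ℝ ∞ (Function.HasUncurry.uncurry (gK κ)) (cube ×ˢ (univ : Set R3)) := by
  have : (Function.HasUncurry.uncurry (gK κ))
      = fun q : R3 × R3 => ∏ i, k1 κ (q.1 i) (q.1 i - q.2 i) := by
    funext q
    rfl
  rw [this]
  apply contDiffOn_prod
  intro i _
  unfold k1
  have hr : ContDiff ℝ ∞ (fun q : R3 × R3 => rr κ (q.1 i)) := by
    unfold rr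
    fun_prop
  have hnum : ContDiff ℝ ∞ (fun q : R3 × R3 => q.1 i - q.2 i - q.1 i) := by fun_prop
  have hne : ∀ q ∈ cube ×ˢ (univ : Set R3), rr κ (q.1 i) ≠ 0 := by
    intro q hq
    exact (rr_pos hκ (hq.1 i).1 (hq.1 i).2).ne'
  have h1 := hnum.contDiffOn.div hr.contDiffOn hne
  exact (phi_contDiff.comp_contDiffOn h1).div hr.contDiffOn hne

lemma gK_eq_zero {κ : ℝ} (hκ0 : 0 < κ) (hκ : κ ≤ 1/2) (p z : R3) (hp : p ∈ cube)
    (hz : z ∉ Icc (fun _ => -1 : R3) (fun _ => 1)) : gK κ p z = 0 := by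
  have : ∃ i, 1 < |z i| := by
    by_contra hcon
    push Not at hcon
    apply hz
    constructor
    · intro i
      exact (abs_le.mp (hcon i)).1
    · intro i
      exact (abs_le.mp (hcon i)).2
  obtain ⟨i, hi⟩ := this
  apply Finset.prod_eq_zero (Finset.mem_univ i)
  apply k1_eq_zero (rr_pos hκ0 (hp i).1 (hp i).2)
  have h1 := rr_lt_left hκ0 hκ (hp i).1 (hp i).2
  have h2 : p i - z i - p i = - z i := by ring
  rw [h2, abs_neg]
  linarith [(hp i).2]

lemma gK_self_sub (κ : ℝ) (x t : R3) : gK κ x (x - t) = Ker κ x t := by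
  unfold gK Ker
  congr 1
  funext i
  simp

lemma A0_eq_conv {κ : ℝ} (hκ : 0 < κ) (k : Fin 3) (u : R3 → ℝ) {x : R3} (hx : x ∈ cube) :
    A κ 0 k u x = (u ⋆[ContinuousLinearMap.mul ℝ ℝ, volume] gK κ x) x := by
  rw [A_eq_kernel hκ k u hx, convolution_mul]
  congr 1
  funext t
  rw [gK_self_sub]
  ring

lemma A0_contDiffOn {κ : ℝ} (hκ0 : 0 < κ) (hκ : κ ≤ 1/2) (k : Fin 3) {u : R3 → ℝ}
    (hu : LocallyIntegrable u volume) : ContDiffOn ℝ ∞ (A κ 0 k u) cube := by
  have h := contDiffOn_convolution_right_with_param_comp (n := ⊤) (ContinuousLinearMap.mul ℝ ℝ)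
    (s := cube) (v := fun x : R3 => x) contDiffOn_id (f := u) (g := gK κ) (μ := volume)
    cube_isOpen isCompact_Icc (gK_eq_zero hκ0 hκ) hu (gK_contDiffOn hκ0)
  exact h.congr fun x hx => A0_eq_conv hκ0 k u hx

end Vale.Agent.P073
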