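import Vale.Agent.P073.Smooth

namespace Vale.Agent.P073

open MeasureTheory Set Filter Topology
open scoped ENNReal ContDiff Convolution

/-- the test function used to move the derivative onto the weak derivative -/
noncomputable def psi (κ : ℝ) (k : Fin 3) (x t : R3) : ℝ :=
  (1 + (κ * (1 - 2 * x k)) * ((t k - x k) / rr κ (x k))) * Ker κ x t

lemma Ker_contDiff (κ : ℝ) (x : R3) : ContDiff ℝ ∞ (Ker κ x) := by
  unfold Ker
  apply contDiff_prod
  intro i _
  unfold k1
  have h1 : ContDiff ℝ ∞ (fun t : R3 => (t i - x i) / rr κ (x i)) := by fun_prop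
  exact (phi_contDiff.comp h1).div_const _

lemma psi_contDiff (κ : ℝ) (k : Fin 3) (x : R3) : ContDiff ℝ ∞ (psi κ k x) := by
  unfold psi
  have h1 : ContDiff ℝ ∞ (fun t : R3 => (1 + (κ * (1 - 2 * x k)) * ((t k - x k) / rr κ (x k)))) := by
    fun_prop
  exact h1.mul (Ker_contDiff κ x)

lemma Ker_eq_zero {κ : ℝ} (hκ0 : 0 < κ) {x t : R3} (hx : x ∈ cube)
    (ht : t ∉ Icc (fun i => x i - rr κ (x i)) (fun i => x i + rr κ (x i))) : Ker κ x t = 0 := by
  have : ∃ i, rr κ (x i) < |t i - x i| := by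
    by_contra hcon
    push Not at hcon
    apply ht
    constructor
    · intro i
      have := (abs_le.mp (hcon i)).1
      show x i - rr κ (x i) ≤ t i
      linarith
    · intro i
      have := (abs_le.mp (hcon i)).2
      show t i ≤ x i + rr κ (x i)
      linarith
  obtain ⟨i, hi⟩ := this
  apply Finset.prod_eq_zero (Finset.mem_univ i)
  exact k1_eq_zero (rr_pos hκ0 (hx i).1 (hx i).2) hi.le

lemma box_subset_cube {κ : ℝ} (hκ0 : 0 < κ) (hκ : κ ≤ 1/2) {x : R3} (hx : x ∈ cube) :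
    Icc (fun i => x i - rr κ (x i)) (fun i => x i + rr κ (x i)) ⊆ cube := by
  intro t ht i
  have h1 := rr_lt_left hκ0 hκ (hx i).1 (hx i).2
  have h2 := rr_lt_right hκ0 hκ (hx i).1 (hx i).2
  have h3 : x i - rr κ (x i) ≤ t i := ht.1 i
  have h4 : t i ≤ x i + rr κ (x i) := ht.2 i
  constructor <;> linarith

lemma psi_hasCompactSupport {κ : ℝ} (hκ0 : 0 < κ) (k : Fin 3) {x : R3} (hx : x ∈ cube) :
    HasCompactSupport (psi κ k x) := by
  apply HasCompactSupport.intro (K := Icc (fun i => x i - rr κ (x i)) (fun i => x i + rr κ (x i)))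
    isCompact_Icc
  intro t ht
  unfold psi
  rw [Ker_eq_zero hκ0 hx ht, mul_zero]

lemma psi_tsupport_subset {κ : ℝ} (hκ0 : 0 < κ) (hκ : κ ≤ 1/2) (k : Fin 3) {x : R3} (hx : x ∈ cube) :
    tsupport (psi κ k x) ⊆ cube := by
  refine Subset.trans ?_ (box_subset_cube hκ0 hκ hx)
  apply closure_minimal _ isClosed_Icc
  intro t ht
  by_contra hcon
  apply ht
  unfold psi
  rw [Ker_eq_zero hκ0 hx hcon, mul_zero]

lemma prod_split (k : Fin 3) (F : Fin 3 → ℝ) :
    ∏ i, F i = F k * ∏ i ∈ Finset.univ.erase k, F i :=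
  (Finset.mul_prod_erase _ _ (Finset.mem_univ k)).symm

/-- the common one-dimensional derivative expression -/
noncomputable def Dk (κ a b : ℝ) : ℝ :=
  ((κ * (1 - 2 * a)) * phi ((b - a) / rr κ a)
      + (1 + (κ * (1 - 2 * a)) * ((b - a) / rr κ a)) * deriv phi ((b - a) / rr κ a)) / (rr κ a) ^ 2

lemma psi_fderiv {κ : ℝ} (hκ0 : 0 < κ) (k : Fin 3) {x : R3} (hx : x ∈ cube) (t : R3) :
    fderiv ℝ (psi κ k x) t (Pi.single k 1)
      = Dk κ (x k) (t k) * ∏ i ∈ Finset.univ.erase k, k1 κ (x i) (t i) := by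
  have hr : rr κ (x k) ≠ 0 := (rr_pos hκ0 (hx k).1 (hx k).2).ne'
  have h1 : HasDerivAt (fun h : ℝ => psi κ k x (t + h • Pi.single k 1))
      (fderiv ℝ (psi κ k x) t (Pi.single k 1)) 0 :=
    ((psi_contDiff κ k x).differentiable (by simp) t).hasFDerivAt.hasLineDerivAt _
  have h2 : (fun h : ℝ => psi κ k x (t + h • Pi.single k 1))
      = fun h : ℝ => ((1 + (κ * (1 - 2 * x k)) * (((t k + h) - x k) / rr κ (x k))) * k1 κ (x k) (t k + h))
          * ∏ i ∈ Finset.univ.erase k, k1 κ (x i) (t i) := by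
    funext h
    unfold psi Ker
    rw [prod_split k]
    have e1 : (t + h • (Pi.single k 1 : R3)) k = t k + h := by simp
    have e2 : ∏ i ∈ Finset.univ.erase k, k1 κ (x i) ((t + h • (Pi.single k 1 : R3)) i)
        = ∏ i ∈ Finset.univ.erase k, k1 κ (x i) (t i) := by
      apply Finset.prod_congr rfl
      intro i hi
      have hne : i ≠ k := Finset.ne_of_mem_erase hi
      simp [Pi.single_eq_of_ne hne]
    rw [e1, e2]
    ring
  have h3 : HasDerivAt (fun h : ℝ => ((1 + (κ * (1 - 2 * x k)) * (((t k + h) - x k) / rr κ (x k)))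
      * k1 κ (x k) (t k + h)) * ∏ i ∈ Finset.univ.erase k, k1 κ (x i) (t i))
      (Dk κ (x k) (t k) * ∏ i ∈ Finset.univ.erase k, k1 κ (x i) (t i)) 0 := by
    apply HasDerivAt.mul_const
    have h4 := k1_hasDerivAt_right (κ := κ) (a := x k) (t k + 0) hr
    have h5 := HasDerivAt.comp_const_add (t k) 0 h4
    simpa [Dk] using h5
  rw [h2] at h1
  exact h1.unique h3

lemma gK_fderiv {κ : ℝ} (hκ0 : 0 < κ) (k : Fin 3) {x : R3} (hx : x ∈ cube) (t : R3) :
    fderiv ℝ (Function.HasUncurry.uncurry (gK κ)) (x, x - t) (Pi.single k 1, Pi.single k 1)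
      = - (Dk κ (x k) (t k) * ∏ i ∈ Finset.univ.erase k, k1 κ (x i) (t i)) := by
  have hr : rr κ (x k) ≠ 0 := (rr_pos hκ0 (hx k).1 (hx k).2).ne'
  have hmem : cube ×ˢ (univ : Set R3) ∈ 𝓝 (x, x - t) :=
    (cube_isOpen.prod isOpen_univ).mem_nhds ⟨hx, mem_univ _⟩
  have hd : DifferentiableAt ℝ (Function.HasUncurry.uncurry (gK κ)) (x, x - t) :=
    ((gK_contDiffOn hκ0).differentiableOn (by simp)).differentiableAt hmem
  have h1 : HasDerivAt (fun h : ℝ => (Function.HasUncurry.uncurry (gK κ))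
      ((x, x - t) + h • ((Pi.single k 1, Pi.single k 1) : R3 × R3)))
      (fderiv ℝ (Function.HasUncurry.uncurry (gK κ)) (x, x - t) (Pi.single k 1, Pi.single k 1)) 0 :=
    hd.hasFDerivAt.hasLineDerivAt _
  have h2 : (fun h : ℝ => (Function.HasUncurry.uncurry (gK κ))
      ((x, x - t) + h • ((Pi.single k 1, Pi.single k 1) : R3 × R3)))
      = fun h : ℝ => k1 κ (x k + h) (t k) * ∏ i ∈ Finset.univ.erase k, k1 κ (x i) (t i) := by
    funext h
    show gK κ (x + h • Pi.single k 1) (x - t + h • Pi.single k 1) = _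
    unfold gK
    rw [prod_split k]
    have e1 : (x + h • (Pi.single k 1 : R3)) k = x k + h := by simp
    have e1' : (x + h • (Pi.single k 1 : R3)) k - (x - t + h • (Pi.single k 1 : R3)) k = t k := by
      simp
    have e2 : ∏ i ∈ Finset.univ.erase k, k1 κ ((x + h • (Pi.single k 1 : R3)) i)
          ((x + h • (Pi.single k 1 : R3)) i - (x - t + h • (Pi.single k 1 : R3)) i)
        = ∏ i ∈ Finset.univ.erase k, k1 κ (x i) (t i) := by
      apply Finset.prod_congr rfl
      intro i hi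
      have hne : i ≠ k := Finset.ne_of_mem_erase hi
      simp [Pi.single_eq_of_ne hne]
    rw [e1', e1, e2]
  have h3 : HasDerivAt (fun h : ℝ => k1 κ (x k + h) (t k)
      * ∏ i ∈ Finset.univ.erase k, k1 κ (x i) (t i))
      (- (Dk κ (x k) (t k)) * ∏ i ∈ Finset.univ.erase k, k1 κ (x i) (t i)) 0 := by
    apply HasDerivAt.mul_const
    have hr' : rr κ (x k + 0) ≠ 0 := by simpa using hr
    have h4 := k1_hasDerivAt_left (κ := κ) (a := x k + 0) (t k) hr'
    have h5 := HasDerivAt.comp_const_add (x k) 0 h4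
    have e : -(κ * (1 - 2 * (x k + 0)) * phi ((t k - (x k + 0)) / rr κ (x k + 0))
        + (1 + κ * (1 - 2 * (x k + 0)) * ((t k - (x k + 0)) / rr κ (x k + 0)))
          * deriv phi ((t k - (x k + 0)) / rr κ (x k + 0))) / rr κ (x k + 0) ^ 2
        = - Dk κ (x k) (t k) := by
      simp only [add_zero, Dk]
      ring
    rw [e] at h5
    exact h5
  rw [h2] at h1
  rw [h1.unique h3]
  ring

end Vale.Agent.P073
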